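import Mathlib

/-!
# P097 / case [c] / T-DISC, piece (C1): the pick inequality (G) at complex labels

`dep` = depth, `Z` = real-label windows, `E` = truncated oscillation of the lines over the ball of
radius `κ * dep z`.
-/

set_option linter.all false

open Metric Set Filter Topology Complex

namespace Vale.Agent.P097.H17.CG

/-- the real-label window under a point -/
noncomputable def rlw (z : ℂ × ℂ) : ℂ × ℂ := (z.1, (z.2.re : ℂ))

theorem norm_sub_rlw (z : ℂ × ℂ) : ‖z - rlw z‖ = |z.2.im| := by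
  have h1 : z - rlw z = ((0 : ℂ), z.2.im * I) := by
    unfold rlw
    refine Prod.ext (by simp) ?_
    apply Complex.ext <;> simp
  rw [h1, Prod.norm_def]
  simp

variable {F : Type*} [NormedAddCommGroup F] [NormedSpace ℂ F]

/-- picks: windows, size and the inequality (G) -/
structure WG (dep : ℂ × ℂ → ℝ) (L : ℂ × ℂ → F) (E : ℂ × ℂ → ℝ) (Z : Set (ℂ × ℂ))
    (L1 κ C e rh : ℝ) (zs : ℂ × ℂ) : Prop where
  lip : ∀ z z', |dep z - dep z'| ≤ L1 * ‖z - z'‖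
  dL : ∀ z ∈ Z, DifferentiableOn ℂ L (closedBall z (κ * dep z))
  E1 : ∀ z ∈ Z, ∀ x ∈ closedBall z (κ * dep z), ∀ y ∈ closedBall z (κ * dep z),
    min 1 ‖L x - L y‖ ≤ E z
  G : ∀ z ∈ Z, E z ≤ C * e * ((‖zs - z‖ + rh + dep z) / rh) ^ (1 / 2 : ℝ) *
    ((‖zs - z‖ + rh + dep z) / dep z) ^ 2

/-- Cauchy estimate for the Fréchet derivative -/
theorem fderiv_le {E : Type*} [NormedAddCommGroup E] [NormedSpace ℂ E] {L : E → F} {z : E}
    {R M : ℝ} (hR : 0 < R) (hM : 0 ≤ M) (hL : DifferentiableOn ℂ L (closedBall z R))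
    (hd : DifferentiableAt ℂ L z) (h : ∀ x ∈ closedBall z R, ‖L x - L z‖ ≤ M) :
    ‖fderiv ℂ L z‖ ≤ M / R := by
  refine ContinuousLinearMap.opNorm_le_bound _ (by positivity) fun v => ?_
  rcases eq_or_ne v 0 with rfl | hv
  · simp
  have hv' : 0 < ‖v‖ := norm_pos_iff.2 hv
  set r := R / ‖v‖ with hr
  have hrp : 0 < r := div_pos hR hv'
  have hmem : ∀ t : ℂ, ‖t‖ ≤ r → z + t • v ∈ closedBall z R := by
    intro t ht
    rw [mem_closedBall, dist_eq_norm, add_sub_cancel_left, norm_smul]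
    calc ‖t‖ * ‖v‖ ≤ r * ‖v‖ := by gcongr
      _ = R := by rw [hr]; field_simp
  have hg : DifferentiableOn ℂ (fun t : ℂ => L (z + t • v) - L z) (closedBall 0 r) := by
    refine DifferentiableOn.sub_const ?_ _
    refine hL.comp (by fun_prop) fun t ht => hmem t ?_
    simpa using ht
  have hdc : DiffContOnCl ℂ (fun t : ℂ => L (z + t • v) - L z) (ball 0 r) :=
    ⟨hg.mono ball_subset_closedBall, by
      rw [closure_ball _ hrp.ne']
      exact hg.continuousOn⟩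
  have h1 := Complex.norm_deriv_le_of_forall_mem_sphere_norm_le hrp hdc (C := M) (by
    intro t ht
    refine h _ (hmem t ?_)
    have := mem_sphere_iff_norm.1 ht
    rw [sub_zero] at this
    exact this.le)
  have h2 : deriv (fun t : ℂ => L (z + t • v) - L z) 0 = fderiv ℂ L z v := by
    have h3 : HasFDerivAt L (fderiv ℂ L z) (z + (0 : ℂ) • v) := by
      simpa using hd.hasFDerivAt
    have h4 : HasDerivAt (fun t : ℂ => z + t • v) v 0 := by
      simpa using ((hasDerivAt_id (0 : ℂ)).smul_const v).const_add z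
    exact ((h3.comp_hasDerivAt (0 : ℂ) h4).sub_const _).deriv
  rw [h2] at h1
  calc ‖fderiv ℂ L z v‖ ≤ M / r := h1
    _ = M / R * ‖v‖ := by rw [hr]; field_simp

section

variable {dep : ℂ × ℂ → ℝ} {L : ℂ × ℂ → F} {E : ℂ × ℂ → ℝ} {Z : Set (ℂ × ℂ)}
    {L1 κ C e rh : ℝ} {zs : ℂ × ℂ} {K' : ℝ}

/-- depth at the real-label window -/
theorem dep_rlw (lip : ∀ z z', |dep z - dep z'| ≤ L1 * ‖z - z'‖) (hL1 : 2 * L1 ≤ K')
    {z : ℂ × ℂ} (hz : K' * |z.2.im| ≤ dep z) :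
    dep z / 2 ≤ dep (rlw z) ∧ dep (rlw z) ≤ 3 / 2 * dep z := by
  have h1 := lip z (rlw z)
  rw [norm_sub_rlw] at h1
  have h2 : L1 * |z.2.im| ≤ dep z / 2 := by
    nlinarith [abs_nonneg z.2.im]
  have h3 := abs_le.1 (h1.trans h2)
  constructor <;> linarith [h3.1, h3.2]

/-- the real-label window under a point of the cone is one of the windows -/
theorem mem_Z (lip : ∀ z z', |dep z - dep z'| ≤ L1 * ‖z - z'‖) {K2 : ℝ} {A : Set ℝ}
    (hK0 : 0 ≤ K') (hL1 : 2 * L1 ≤ K') (hK2 : 2 * K2 ≤ K')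
    {z : ℂ × ℂ} (hz : K' * (|z.2.im| + infDist z.2.re A) ≤ dep z) :
    K2 * infDist (rlw z).2.re A ≤ dep (rlw z) ∧ dep z / 2 ≤ dep (rlw z) ∧
      dep (rlw z) ≤ 3 / 2 * dep z := by
  have h0 : 0 ≤ infDist z.2.re A := infDist_nonneg
  have h1 : K' * |z.2.im| ≤ dep z := by nlinarith
  obtain ⟨h2, h3⟩ := dep_rlw lip hL1 h1
  refine ⟨?_, h2, h3⟩
  have h4 : (rlw z).2.re = z.2.re := by simp [rlw]
  rw [h4]
  have h5 : 0 ≤ K' * |z.2.im| := by positivity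
  nlinarith

variable (W : WG dep L E Z L1 κ C e rh zs)

include W

theorem WG.ball_sub (hκ : 0 < κ) (hK1 : 1 ≤ K') (hL1 : 2 * L1 ≤ K') (hKκ : 4 / κ ≤ K')
    {z : ℂ × ℂ} (hd : 0 < dep z) (hz : K' * |z.2.im| ≤ dep z) :
    closedBall z (κ / 4 * dep z) ⊆ closedBall (rlw z) (κ * dep (rlw z)) := by
  intro x hx
  obtain ⟨h2, h3⟩ := dep_rlw W.lip hL1 hz
  have h4 : |z.2.im| ≤ κ / 4 * dep z := by
    have h5 : 4 / κ * |z.2.im| ≤ dep z :=
      (mul_le_mul_of_nonneg_right hKκ (abs_nonneg _)).trans hz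
    have h6 : |z.2.im| = κ / 4 * (4 / κ * |z.2.im|) := by field_simp
    rw [h6]
    gcongr
  rw [mem_closedBall, dist_eq_norm] at hx ⊢
  calc ‖x - rlw z‖ = ‖(x - z) + (z - rlw z)‖ := by congr 1; abel
    _ ≤ ‖x - z‖ + ‖z - rlw z‖ := norm_add_le _ _
    _ ≤ κ / 4 * dep z + κ / 4 * dep z := by
        rw [norm_sub_rlw]; exact add_le_add hx h4
    _ = κ * (dep z / 2) := by ring
    _ ≤ _ := by gcongr

/-- the size of the real-label window, bounded in terms of the point itself -/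
theorem WG.E_le (hκ : 0 < κ) (hC : 0 ≤ C) (he : 0 ≤ e) (hrh : 0 < rh) (hK1 : 1 ≤ K')
    (hL1 : 2 * L1 ≤ K') {z : ℂ × ℂ} (hd : 0 < dep z) (hz : K' * |z.2.im| ≤ dep z)
    (hZ : rlw z ∈ Z) :
    E (rlw z) ≤ 128 * (C * e * ((‖zs - z‖ + rh + dep z) / rh) ^ (1 / 2 : ℝ) *
      ((‖zs - z‖ + rh + dep z) / dep z) ^ 2) := by
  obtain ⟨h2, h3⟩ := dep_rlw W.lip hL1 hz
  have h1 : |z.2.im| ≤ dep z := by nlinarith [abs_nonneg z.2.im]
  set D := ‖zs - z‖ + rh + dep z with hD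
  set D' := ‖zs - rlw z‖ + rh + dep (rlw z) with hD'
  have hn : 0 ≤ ‖zs - z‖ := norm_nonneg _
  have hn' : 0 ≤ ‖zs - rlw z‖ := norm_nonneg _
  have hDp : 0 < D := by positivity
  have hd' : 0 < dep (rlw z) := by linarith
  have hDp' : 0 < D' := by positivity
  have hDD : D' ≤ 4 * D := by
    have h4 : ‖zs - rlw z‖ ≤ ‖zs - z‖ + |z.2.im| := by
      rw [← norm_sub_rlw]
      calc ‖zs - rlw z‖ = ‖(zs - z) + (z - rlw z)‖ := by congr 1; abel
        _ ≤ _ := norm_add_le _ _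
    rw [hD', hD]
    linarith
  have hG := W.G _ hZ
  rw [← hD'] at hG
  have e1 : (D' / rh) ^ (1 / 2 : ℝ) ≤ 2 * (D / rh) ^ (1 / 2 : ℝ) := by
    calc (D' / rh) ^ (1 / 2 : ℝ) ≤ (4 * (D / rh)) ^ (1 / 2 : ℝ) := by
          apply Real.rpow_le_rpow (by positivity) _ (by norm_num)
          rw [← mul_div_assoc]
          gcongr
      _ = (4 : ℝ) ^ (1 / 2 : ℝ) * (D / rh) ^ (1 / 2 : ℝ) :=
          Real.mul_rpow (by norm_num) (by positivity)
      _ = 2 * (D / rh) ^ (1 / 2 : ℝ) := by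
          congr 1
          rw [← Real.sqrt_eq_rpow, show (4 : ℝ) = 2 ^ 2 by norm_num,
            Real.sqrt_sq (by norm_num)]
  have e2 : (D' / dep (rlw z)) ^ 2 ≤ 64 * (D / dep z) ^ 2 := by
    have h5 : D' / dep (rlw z) ≤ 8 * (D / dep z) := by
      calc D' / dep (rlw z) ≤ 4 * D / (dep z / 2) := by gcongr
        _ = 8 * (D / dep z) := by field_simp; ring
    calc (D' / dep (rlw z)) ^ 2 ≤ (8 * (D / dep z)) ^ 2 := by gcongr
      _ = _ := by ring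
  refine hG.trans ?_
  calc C * e * (D' / rh) ^ (1 / 2 : ℝ) * (D' / dep (rlw z)) ^ 2
      ≤ C * e * (2 * (D / rh) ^ (1 / 2 : ℝ)) * (64 * (D / dep z) ^ 2) := by gcongr
    _ = _ := by ring

theorem WG.osc (hκ : 0 < κ) (hC : 0 ≤ C) (he : 0 ≤ e) (hrh : 0 < rh) (hK1 : 1 ≤ K')
    (hL1 : 2 * L1 ≤ K') (hKκ : 4 / κ ≤ K') {z : ℂ × ℂ} (hd : 0 < dep z)
    (hz : K' * |z.2.im| ≤ dep z) (hZ : rlw z ∈ Z) {x y : ℂ × ℂ}
    (hx : x ∈ closedBall z (κ / 4 * dep z)) (hy : y ∈ closedBall z (κ / 4 * dep z)) :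
    min 1 ‖L x - L y‖ ≤ 128 * (C * e * ((‖zs - z‖ + rh + dep z) / rh) ^ (1 / 2 : ℝ) *
      ((‖zs - z‖ + rh + dep z) / dep z) ^ 2) :=
  (W.E1 _ hZ x (W.ball_sub hκ hK1 hL1 hKκ hd hz hx) y
    (W.ball_sub hκ hK1 hL1 hKκ hd hz hy)).trans (W.E_le hκ hC he hrh hK1 hL1 hd hz hZ)

/-- **(C1)** complex (G) for the gradient -/
theorem WG.grad (hκ : 0 < κ) (hC : 0 ≤ C) (he : 0 ≤ e) (hrh : 0 < rh)
    (hK1 : 1 ≤ K') (hL1 : 2 * L1 ≤ K') (hKκ : 4 / κ ≤ K') {z : ℂ × ℂ} (hd : 0 < dep z)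
    (hz : K' * |z.2.im| ≤ dep z) (hZ : rlw z ∈ Z) :
    min 1 (dep z * ‖fderiv ℂ L z‖) ≤ 128 * max 1 (4 / κ) *
      (C * e * ((‖zs - z‖ + rh + dep z) / rh) ^ (1 / 2 : ℝ) *
      ((‖zs - z‖ + rh + dep z) / dep z) ^ 2) := by
  have hE := W.E_le hκ hC he hrh hK1 hL1 hd hz hZ
  have hm : 0 < max 1 (4 / κ) := by positivity
  suffices h : min 1 (dep z * ‖fderiv ℂ L z‖) ≤ max 1 (4 / κ) * E (rlw z) by
    refine h.trans ((mul_le_mul_of_nonneg_left hE hm.le).trans_eq ?_)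
    ring
  have hR : 0 < κ / 4 * dep z := by positivity
  have hsub := W.ball_sub hκ hK1 hL1 hKκ hd hz
  rcases le_or_gt 1 (E (rlw z)) with h1 | h1
  · calc min 1 (dep z * ‖fderiv ℂ L z‖) ≤ 1 := min_le_left _ _
      _ ≤ 1 * 1 := by norm_num
      _ ≤ max 1 (4 / κ) * E (rlw z) := by
          gcongr
          exact le_max_left _ _
  · have hzz : z ∈ closedBall z (κ / 4 * dep z) := mem_closedBall_self hR.le
    have hb : ∀ x ∈ closedBall z (κ / 4 * dep z), ‖L x - L z‖ ≤ E (rlw z) := by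
      intro x hx
      have h2 := W.E1 _ hZ x (hsub hx) z (hsub hzz)
      rcases min_le_iff.1 h2 with h3 | h3
      · exact absurd h3 (not_le.2 h1)
      · exact h3
    have hE0 : 0 ≤ E (rlw z) := by
      have := hb z hzz
      simpa using this
    have hdL := (W.dL _ hZ).mono hsub
    have h4 := fderiv_le hR hE0 hdL (hdL.differentiableAt (closedBall_mem_nhds z hR)) hb
    calc min 1 (dep z * ‖fderiv ℂ L z‖) ≤ dep z * ‖fderiv ℂ L z‖ := min_le_right _ _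
      _ ≤ dep z * (E (rlw z) / (κ / 4 * dep z)) := by gcongr
      _ = 4 / κ * E (rlw z) := by field_simp
      _ ≤ max 1 (4 / κ) * E (rlw z) := by
          gcongr
          exact le_max_right _ _

end

end Vale.Agent.P097.H17.CG
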