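import Vale.Agent.P097.H17.LeafBox

/-!
# P097, row LEAF (624 #13322 (4)): convergence of lines along exact leaves

Sequences `Y n → Y0` (normalised positions `theta_k`), `f n` zero free (`exp (i alpha_k)`), area law
`d cos(del) ∧ dY = B(Y) K dt∧dw`.  Near a point `zs` whose fibre of `Y0` meets the open set `G`
arbitrarily near `zs`, the square of `f n` is an affine combination, with bounded coefficient, of
its values at two points of a compact subset of `G` on the same exact leaf.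
-/

set_option linter.all false

open Complex Metric Filter Topology Set

namespace Vale.Agent.P097.H17

/-- one member of the sequence -/
structure One (W : Set (ℂ × ℂ)) (Y f K : ℂ × ℂ → ℂ) (e B : ℂ → ℂ) : Prop where
  Ya : AnalyticOnNhd ℂ Y W
  fa : AnalyticOnNhd ℂ f W
  f0 : ∀ z ∈ W, f z ≠ 0
  e0 : ∀ z ∈ W, e (Y z) ≠ 0
  ar : ∀ z ∈ W, (1 - (e (Y z) * f z)⁻¹ ^ 2) / 2 * (e (Y z) * wdg f Y z) = B (Y z) * K z

/-- linear coordinates -/
noncomputable def Lc (τ ν : ℂ × ℂ) : ℂ × ℂ →L[ℂ] ℂ × ℂ :=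
  (ContinuousLinearMap.fst ℂ ℂ ℂ).smulRight τ + (ContinuousLinearMap.snd ℂ ℂ ℂ).smulRight ν

theorem Lc_apply (τ ν v : ℂ × ℂ) : Lc τ ν v = v.1 • τ + v.2 • ν := rfl

theorem clm_eq (A : ℂ × ℂ →L[ℂ] ℂ) (v : ℂ × ℂ) : A v = v.1 * A (1, 0) + v.2 * A (0, 1) := by
  have e : v = v.1 • ((1, 0) : ℂ × ℂ) + v.2 • ((0, 1) : ℂ × ℂ) := by ext <;> simp
  conv_lhs => rw [e]
  rw [map_add, map_smul, map_smul, smul_eq_mul, smul_eq_mul]

theorem fderiv_lin {f : ℂ × ℂ → ℂ} {zs τ ν v u : ℂ × ℂ}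
    (hf : AnalyticAt ℂ f (zs + Lc τ ν v)) :
    fderiv ℂ (fun v => f (zs + Lc τ ν v)) v u = fderiv ℂ f (zs + Lc τ ν v) (Lc τ ν u) := by
  have h1 := hf.differentiableAt.hasFDerivAt
  have h2 : HasFDerivAt (fun v => zs + Lc τ ν v) (Lc τ ν) v :=
    (Lc τ ν).hasFDerivAt.const_add zs
  have h3 : HasFDerivAt (fun v => f (zs + Lc τ ν v))
      ((fderiv ℂ f (zs + Lc τ ν v)).comp (Lc τ ν)) v := h1.comp v h2
  rw [h3.fderiv]
  rfl

theorem an_lin {f : ℂ × ℂ → ℂ} {zs τ ν v : ℂ × ℂ} (hf : AnalyticAt ℂ f (zs + Lc τ ν v)) :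
    AnalyticAt ℂ (fun v => f (zs + Lc τ ν v)) v := by
  have h2 : AnalyticAt ℂ (fun v => zs + Lc τ ν v) v :=
    analyticAt_const.add ((Lc τ ν).analyticAt v)
  exact hf.comp_of_eq h2 rfl

theorem wdg_lin {f g : ℂ × ℂ → ℂ} {zs τ ν v : ℂ × ℂ} (hd : τ.1 * ν.2 - τ.2 * ν.1 = 1)
    (hf : AnalyticAt ℂ f (zs + Lc τ ν v)) (hg : AnalyticAt ℂ g (zs + Lc τ ν v)) :
    wdg (fun v => f (zs + Lc τ ν v)) (fun v => g (zs + Lc τ ν v)) v =
      wdg f g (zs + Lc τ ν v) := by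
  simp only [wdg]
  rw [fderiv_lin hf, fderiv_lin hf, fderiv_lin hg, fderiv_lin hg]
  have e1 : Lc τ ν (1, 0) = τ := by simp [Lc_apply]
  have e2 : Lc τ ν (0, 1) = ν := by simp [Lc_apply]
  rw [e1, e2, clm_eq (fderiv ℂ f _) τ, clm_eq (fderiv ℂ f _) ν, clm_eq (fderiv ℂ g _) τ,
    clm_eq (fderiv ℂ g _) ν]
  linear_combination (fderiv ℂ f (zs + Lc τ ν v) (1, 0) * fderiv ℂ g (zs + Lc τ ν v) (0, 1) -
    fderiv ℂ f (zs + Lc τ ν v) (0, 1) * fderiv ℂ g (zs + Lc τ ν v) (1, 0)) * hd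

/-- derivatives of a locally uniform limit, one direction -/
theorem der_close {ι : Type*} {l : Filter ι} {W : Set (ℂ × ℂ)} {zs u : ℂ × ℂ}
    {Y : ι → ℂ × ℂ → ℂ} {Y0 : ℂ × ℂ → ℂ} (hW : IsOpen W) (hz : zs ∈ W)
    (Yt : TendstoLocallyUniformlyOn Y Y0 l W) (Y0a : AnalyticOnNhd ℂ Y0 W)
    (Ya : ∀ᶠ n in l, AnalyticOnNhd ℂ (Y n) W) {ε : ℝ} (hε : 0 < ε) :
    ∃ r > 0, ball zs r ⊆ W ∧ ∀ᶠ n in l, ∀ z ∈ ball zs r,
      ‖fderiv ℂ (Y n) z u - fderiv ℂ Y0 zs u‖ ≤ ε := by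
  have hc : ContinuousAt (fun z => fderiv ℂ Y0 z u) zs :=
    ((Y0a zs hz).fderiv.continuousAt).clm_apply continuousAt_const
  obtain ⟨r1, hr1, h1⟩ := Metric.continuousAt_iff.1 hc (ε / 2) (by positivity)
  obtain ⟨r2, hr2, h2⟩ := Metric.isOpen_iff.1 hW zs hz
  set ρ := r2 / 4 with hρ
  have hρ0 : 0 < ρ := by positivity
  have hcb : closedBall zs (2 * ρ) ⊆ W := (closedBall_subset_ball (by linarith)).trans h2
  have hcomp : IsCompact (closedBall zs (2 * ρ)) := isCompact_closedBall _ _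
  have hu := (tendstoLocallyUniformlyOn_iff_tendstoUniformlyOn_of_compact hcomp).1 (Yt.mono hcb)
  set t := ρ / (‖u‖ + 1) with ht
  have ht0 : 0 < t := by positivity
  have htu : t * ‖u‖ ≤ ρ := by
    rw [ht, div_mul_eq_mul_div, div_le_iff₀ (by positivity)]
    nlinarith [norm_nonneg u]
  refine ⟨min r1 ρ, by positivity, fun z hz' => hcb ?_, ?_⟩
  · have := mem_ball.1 hz'
    rw [mem_closedBall]
    linarith [min_le_right r1 ρ]
  filter_upwards [Ya, Metric.tendstoUniformlyOn_iff.1 hu (ε * t / 2) (by positivity)] with n hn hn2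
  intro z hz'
  have hz1 : dist z zs < r1 := (mem_ball.1 hz').trans_le (min_le_left _ _)
  have hz2 : dist z zs < ρ := (mem_ball.1 hz').trans_le (min_le_right _ _)
  have hmem : ∀ ζ : ℂ, ‖ζ‖ ≤ t → z + ζ • u ∈ closedBall zs (2 * ρ) := by
    intro ζ hζ
    rw [mem_closedBall, dist_eq_norm]
    rw [dist_eq_norm] at hz2
    calc ‖z + ζ • u - zs‖ = ‖(z - zs) + ζ • u‖ := by congr 1; abel
      _ ≤ ‖z - zs‖ + ‖ζ • u‖ := norm_add_le _ _
      _ ≤ ρ + t * ‖u‖ := by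
          rw [norm_smul]
          have : ‖ζ‖ * ‖u‖ ≤ t * ‖u‖ := mul_le_mul_of_nonneg_right hζ (norm_nonneg _)
          linarith
      _ ≤ 2 * ρ := by linarith
  have hline : ∀ ζ : ℂ, ‖ζ‖ ≤ t → HasDerivAt (fun ζ : ℂ => Y n (z + ζ • u) - Y0 (z + ζ • u))
      (fderiv ℂ (Y n) (z + ζ • u) u - fderiv ℂ Y0 (z + ζ • u) u) ζ := by
    intro ζ hζ
    have hl : HasDerivAt (fun ζ : ℂ => z + ζ • u) u ζ := by
      simpa using ((hasDerivAt_id ζ).smul_const u).const_add z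
    exact ((hn _ (hcb (hmem ζ hζ))).differentiableAt.hasFDerivAt.comp_hasDerivAt ζ hl).sub
      ((Y0a _ (hcb (hmem ζ hζ))).differentiableAt.hasFDerivAt.comp_hasDerivAt ζ hl)
  have hdc : DiffContOnCl ℂ (fun ζ : ℂ => Y n (z + ζ • u) - Y0 (z + ζ • u)) (ball 0 t) := by
    refine DifferentiableOn.diffContOnCl fun ζ hζ => ?_
    have : ‖ζ‖ ≤ t := by
      have := closure_ball_subset_closedBall hζ
      simpa using this
    exact (hline ζ this).differentiableAt.differentiableWithinAt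
  have hcau := Complex.norm_deriv_le_of_forall_mem_sphere_norm_le (c := 0) ht0 hdc
    (C := ε * t / 2) (fun ζ hζ => by
      have : ‖ζ‖ ≤ t := by simpa using (mem_sphere.1 hζ).le
      have h3 := hn2 _ (hmem ζ this)
      rw [dist_comm, dist_eq_norm] at h3
      exact h3.le)
  rw [(hline 0 (by simpa using ht0.le)).deriv] at hcau
  simp only [zero_smul, add_zero] at hcau
  have h4 : ε * t / 2 / t = ε / 2 := by field_simp
  rw [h4] at hcau
  have h5 := h1 hz1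
  rw [dist_eq_norm] at h5
  calc _ = ‖(fderiv ℂ (Y n) z u - fderiv ℂ Y0 z u) + (fderiv ℂ Y0 z u - fderiv ℂ Y0 zs u)‖ := by
        congr 1; ring
    _ ≤ _ := norm_add_le _ _
    _ ≤ ε := by linarith

/-- adapted directions at a point where `dY ≠ 0` -/
theorem exists_dirs {A : ℂ × ℂ →L[ℂ] ℂ} (hA : A ≠ 0) :
    ∃ τ ν : ℂ × ℂ, A τ = 0 ∧ A ν = 1 ∧ τ.1 * ν.2 - τ.2 * ν.1 = 1 := by
  obtain ⟨u, hu⟩ : ∃ u, A u ≠ 0 := by
    by_contra h
    push Not at h
    exact hA (ContinuousLinearMap.ext fun u => h u)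
  refine ⟨(A (0, 1), - A (1, 0)), (A u)⁻¹ • u, ?_, ?_, ?_⟩
  · rw [clm_eq A (A (0, 1), - A (1, 0))]
    ring
  · rw [map_smul, smul_eq_mul, inv_mul_cancel₀ hu]
  · have h1 := clm_eq A u
    simp only [Prod.smul_fst, Prod.smul_snd, smul_eq_mul]
    have : A (0, 1) * ((A u)⁻¹ * u.2) - -A (1, 0) * ((A u)⁻¹ * u.1) =
      (A u)⁻¹ * (u.1 * A (1, 0) + u.2 * A (0, 1)) := by ring
    rw [this, ← h1, inv_mul_cancel₀ hu]

/-- inverse of the adapted coordinates -/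
theorem coord_inv {A : ℂ × ℂ →L[ℂ] ℂ} {τ ν : ℂ × ℂ} (h1 : A τ = 0) (h2 : A ν = 1)
    (h3 : τ.1 * ν.2 - τ.2 * ν.1 = 1) (w : ℂ × ℂ) :
    Lc τ ν (w.1 * ν.2 - w.2 * ν.1, A w) = w := by
  have hn : A w = τ.1 * w.2 - τ.2 * w.1 := by
    have e : w = (w.1 * ν.2 - w.2 * ν.1) • τ + (τ.1 * w.2 - τ.2 * w.1) • ν := by
      ext
      · simp only [Prod.fst_add, Prod.smul_fst, smul_eq_mul]
        linear_combination (-w.1) * h3
      · simp only [Prod.snd_add, Prod.smul_snd, smul_eq_mul]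
        linear_combination (-w.2) * h3
    conv_lhs => rw [e]
    rw [map_add, map_smul, map_smul, h1, h2]
    simp
  rw [Lc_apply, hn]
  ext
  · simp only [Prod.fst_add, Prod.smul_fst, smul_eq_mul]
    linear_combination w.1 * h3
  · simp only [Prod.snd_add, Prod.smul_snd, smul_eq_mul]
    linear_combination w.2 * h3

/-- the conclusion of LEAF for one member -/
def Lfc (Y f : ℂ × ℂ → ℂ) (K1 : Set (ℂ × ℂ)) (C : ℝ) (z : ℂ × ℂ) : Prop :=
  ∃ a ∈ K1, ∃ b ∈ K1, Y a = Y z ∧ Y b = Y z ∧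
    (∃ ρ : ℂ, ‖ρ‖ ≤ C ∧ f z ^ 2 = f a ^ 2 + ρ * (f b ^ 2 - f a ^ 2)) ∧
    ‖f z‖ ≤ C * ‖f a‖ ∧ ‖f a‖ ≤ C * ‖f z‖

/-- **ROW LEAF** (624 #13322 (4)). -/
theorem leaf {ι : Type*} {l : Filter ι} {W G : Set (ℂ × ℂ)} {zs : ℂ × ℂ}
    {Y f K : ι → ℂ × ℂ → ℂ} {Y0 K0 : ℂ × ℂ → ℂ} {e B : ι → ℂ → ℂ}
    (hW : IsOpen W) (hz : zs ∈ W)
    (Yt : TendstoLocallyUniformlyOn Y Y0 l W) (Y0a : AnalyticOnNhd ℂ Y0 W)
    (dY : fderiv ℂ Y0 zs ≠ 0)
    (Kt : TendstoLocallyUniformlyOn K K0 l W) (K0c : ContinuousAt K0 zs) (K0z : K0 zs ≠ 0)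
    (ev : ∀ᶠ n in l, One W (Y n) (f n) (K n) (e n) (B n))
    (hG : IsOpen G) (hGz : ∃ᶠ z in 𝓝 zs, z ∈ G ∧ Y0 z = Y0 zs) :
    ∃ K1 : Set (ℂ × ℂ), IsCompact K1 ∧ K1 ⊆ G ∩ W ∧ ∃ V ∈ 𝓝 zs, V ⊆ W ∧ ∃ C : ℝ,
      ∀ᶠ n in l, ∀ z ∈ V, Lfc (Y n) (f n) K1 C z := by
  obtain ⟨τ, ν, hτ, hν, hdet⟩ := exists_dirs dY
  set D := K0 zs with hD
  have hDp : 0 < ‖D‖ := norm_pos_iff.2 K0z
  have Yan : ∀ᶠ n in l, AnalyticOnNhd ℂ (Y n) W := ev.mono fun n hn => hn.Ya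
  obtain ⟨r1, hr1, hs1, he1⟩ := der_close (u := τ) hW hz Yt Y0a Yan
    (ε := 1 / 32) (by norm_num)
  obtain ⟨r2, hr2, hs2, he2⟩ := der_close (u := ν) hW hz Yt Y0a Yan
    (ε := 1 / 32) (by norm_num)
  rw [hτ] at he1
  rw [hν] at he2
  -- the factor `K`
  obtain ⟨r3, hr3, he3⟩ : ∃ r > 0, ∀ᶠ n in l, ∀ z ∈ ball zs r, ‖K n z - D‖ ≤ ‖D‖ / 32 := by
    obtain ⟨t, ht, h1⟩ := Metric.tendstoLocallyUniformlyOn_iff.1 Kt (‖D‖ / 64) (by positivity)
      zs hz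
    rw [hW.nhdsWithin_eq hz] at ht
    obtain ⟨ra, hra, h2⟩ := Metric.continuousAt_iff.1 K0c (‖D‖ / 64) (by positivity)
    obtain ⟨rb, hrb, h3⟩ := Metric.mem_nhds_iff.1 ht
    refine ⟨min ra rb, by positivity, ?_⟩
    filter_upwards [h1] with n hn z hz'
    have h4 := hn z (h3 (ball_subset_ball (min_le_right _ _) hz'))
    have h5 := h2 ((mem_ball.1 hz').trans_le (min_le_left _ _))
    rw [dist_eq_norm] at h4 h5
    calc ‖K n z - D‖ = ‖(K0 z - D) - (K0 z - K n z)‖ := by congr 1; ring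
      _ ≤ _ := norm_sub_le _ _
      _ ≤ _ := by linarith
  -- the box
  set M := ‖τ‖ + ‖ν‖ + 1 with hM
  have hMp : 0 < M := by positivity
  set R := min r1 (min r2 r3) with hR
  have hRp : 0 < R := by positivity
  set r := R / M with hr
  have hrp : 0 < r := by positivity
  have hLn : ∀ v : ℂ × ℂ, ‖Lc τ ν v‖ ≤ M * ‖v‖ := by
    intro v
    rw [Lc_apply]
    calc _ ≤ ‖v.1 • τ‖ + ‖v.2 • ν‖ := norm_add_le _ _
      _ ≤ ‖v‖ * ‖τ‖ + ‖v‖ * ‖ν‖ := by
          rw [norm_smul, norm_smul]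
          gcongr
          · exact norm_fst_le v
          · exact norm_snd_le v
      _ ≤ M * ‖v‖ := by rw [hM]; nlinarith [norm_nonneg v]
  have hLb : ∀ v ∈ ball (0 : ℂ × ℂ) r, zs + Lc τ ν v ∈ ball zs R := by
    intro v hv
    rw [mem_ball_zero_iff] at hv
    rw [mem_ball, dist_eq_norm, add_sub_cancel_left]
    calc _ ≤ _ := hLn v
      _ < M * r := mul_lt_mul_of_pos_left hv hMp
      _ = R := by rw [hr]; field_simp
  have hRW : ball zs R ⊆ W := (ball_subset_ball (min_le_left _ _)).trans hs1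
  have hbx : ∀ᶠ n in l, Ar r (fun v => Y n (zs + Lc τ ν v)) (fun v => f n (zs + Lc τ ν v))
      (fun v => K n (zs + Lc τ ν v)) (e n) (B n) D := by
    filter_upwards [ev, he1, he2, he3] with n hn h1 h2 h3
    have hdx : ∀ v ∈ ball (0 : ℂ × ℂ) r,
        ‖fderiv ℂ (fun v => Y n (zs + Lc τ ν v)) v (0, 1) - 1‖ ≤ 1 / 32 := by
      intro v hv
      have hb := hLb v hv
      rw [fderiv_lin (hn.Ya _ (hRW hb))]
      have e1 : Lc τ ν (0, 1) = ν := by simp [Lc_apply]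
      rw [e1]
      exact h2 _ (ball_subset_ball ((min_le_right _ _).trans (min_le_left _ _)) hb)
    refine ⟨⟨hrp, fun v hv => an_lin (hn.Ya _ (hRW (hLb v hv))), fun v hv =>
      (hdx v hv).trans (by norm_num), fun v hv => ?_⟩, fun v hv => an_lin (hn.fa _ (hRW (hLb v hv))),
      fun v hv => hn.f0 _ (hRW (hLb v hv)), fun v hv => hn.e0 _ (hRW (hLb v hv)),
      fun v hv => ?_, fun v hv => ?_⟩
    · have hb := hLb v hv
      rw [fderiv_lin (hn.Ya _ (hRW hb))]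
      have e1 : Lc τ ν (1, 0) = τ := by simp [Lc_apply]
      rw [e1]
      have := h1 _ (ball_subset_ball (min_le_left _ _) hb)
      rw [sub_zero] at this
      linarith
    · have hb := hLb v hv
      have := hn.ar _ (hRW hb)
      rw [wdg_lin hdet (hn.fa _ (hRW hb)) (hn.Ya _ (hRW hb))]
      exact this
    · have hb := hLb v hv
      have h4 := h3 _ (ball_subset_ball ((min_le_right _ _).trans (min_le_right _ _)) hb)
      have h5 := hdx v hv
      set d := fderiv ℂ (fun v => Y n (zs + Lc τ ν v)) v (0, 1) with hd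
      have h6 : 31 / 32 ≤ ‖d‖ := by
        have := norm_sub_norm_le (1 : ℂ) d
        rw [norm_sub_rev, norm_one] at this
        linarith
      have hd0 : d ≠ 0 := by
        intro h0
        rw [h0, norm_zero] at h6
        norm_num at h6
      have e1 : K n (zs + Lc τ ν v) / d - D = ((K n (zs + Lc τ ν v) - D) - D * (d - 1)) / d := by
        field_simp
        ring
      rw [e1, norm_div, div_le_iff₀ (by linarith)]
      calc _ ≤ ‖K n (zs + Lc τ ν v) - D‖ + ‖D * (d - 1)‖ := norm_sub_le _ _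
        _ ≤ ‖D‖ / 32 + ‖D‖ * (1 / 32) := by
            rw [norm_mul]
            gcongr
        _ ≤ ‖D‖ / 8 * (31 / 32) := by nlinarith
        _ ≤ _ := by gcongr
  -- the reference point
  set A := fderiv ℂ Y0 zs with hA
  set ci : ℂ × ℂ → ℂ × ℂ := fun z =>
    ((z - zs).1 * ν.2 - (z - zs).2 * ν.1, A (z - zs)) with hci
  have hcic : Continuous ci := by
    simp only [hci]
    exact (by fun_prop)
  have hci0 : ci zs = 0 := by simp [hci]
  have hciL : ∀ z, zs + Lc τ ν (ci z) = z := fun z => by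
    rw [hci, coord_inv hτ hν hdet]
    abel
  have hN1 : ∀ᶠ z in 𝓝 zs, ci z ∈ ball (0 : ℂ × ℂ) (r / 16) := by
    have : ci ⁻¹' ball (0 : ℂ × ℂ) (r / 16) ∈ 𝓝 zs :=
      hcic.continuousAt.preimage_mem_nhds (by rw [hci0]; exact ball_mem_nhds _ (by positivity))
    exact this
  obtain ⟨as, ⟨hasG, hasY⟩, hasb⟩ := (hGz.and_eventually hN1).exists
  have hasW : as ∈ W := by
    rw [← hciL as]
    exact hRW (hLb _ (ball_subset_ball (by linarith) hasb))
  obtain ⟨η, hη, hηs⟩ := Metric.isOpen_iff.1 (hG.inter hW) as ⟨hasG, hasW⟩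
  set s0 := (ci as).1 with hs0
  set xs := (ci as).2 with hxs
  have hcias : ci as = (s0, xs) := rfl
  have hsx := mem_bx.1 (hcias ▸ hasb)
  -- the second point
  set c := min (r / 300) (η / (4 * M)) with hc
  have hcp : 0 < c := by positivity
  set s1 := s0 + (c : ℂ) with hs1'
  have hs10 : s1 - s0 = (c : ℂ) := by rw [hs1']; ring
  have hns : ‖s1 - s0‖ = c := by rw [hs10, norm_real, Real.norm_of_nonneg hcp.le]
  have hs1n : ‖s1‖ < r / 2 := by
    calc ‖s1‖ ≤ ‖s0‖ + ‖(c : ℂ)‖ := norm_add_le _ _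
      _ < r / 2 := by
        rw [norm_real, Real.norm_of_nonneg hcp.le]
        have : c ≤ r / 300 := min_le_left _ _
        linarith [hsx.1]
  have h01 : s1 ≠ s0 := by
    intro h
    rw [h, sub_self, norm_zero] at hns
    exact hcp.ne hns
  set κ := η / (16 * M) with hκ
  have hκp : 0 < κ := by positivity
  -- uniform convergence near `zs` and at `as`
  obtain ⟨t, ht, h1⟩ := Metric.tendstoLocallyUniformlyOn_iff.1 Yt κ hκp zs hz
  rw [hW.nhdsWithin_eq hz] at ht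
  obtain ⟨t', ht', h1'⟩ := Metric.tendstoLocallyUniformlyOn_iff.1 Yt κ hκp as hasW
  have hast : as ∈ t' := mem_of_mem_nhdsWithin hasW ht'
  have hN2 : ∀ᶠ z in 𝓝 zs, dist (Y0 z) (Y0 zs) < κ :=
    (Y0a zs hz).continuousAt.eventually (ball_mem_nhds _ hκp)
  refine ⟨closedBall as (η / 2), isCompact_closedBall _ _,
    (closedBall_subset_ball (by linarith)).trans hηs,
    {z | ci z ∈ ball (0 : ℂ × ℂ) (r / 16) ∧ dist (Y0 z) (Y0 zs) < κ} ∩ (t ∩ W),
    Filter.inter_mem (hN1.and hN2) (Filter.inter_mem ht (hW.mem_nhds hz)),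
    fun z hz => hz.2.2, max 21 (6000 * r / c), ?_⟩
  filter_upwards [hbx, h1, h1'] with n hn h2 h3
  rintro z ⟨⟨hz1, hz2⟩, hz3, hz4⟩
  obtain ⟨x0, x1, hx0, hx1, g0, g1, hxx, ⟨ρ, hρ, hρ2⟩, hq1, hq2⟩ := hn.box hz1
    (s0 := s0) (s1 := s1) (by linarith [hsx.1]) hs1n h01 (by rw [hns]; exact min_le_left _ _)
  simp only [hciL] at g0 g1 hρ2 hq1 hq2
  -- distance of the first point
  have hd0 : ‖x0 - xs‖ ≤ 4 * κ := by
    have h4 := hn.bx.inj (s := s0) (x := x0) (x' := xs) (by linarith [hsx.1]) hx0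
      (by linarith [hsx.2])
    simp only [g0] at h4
    have e1 : zs + Lc τ ν (s0, xs) = as := by rw [← hcias]; exact hciL as
    rw [e1] at h4
    have h5 := h2 z hz3
    have h6 := h3 as hast
    rw [dist_eq_norm] at h5 h6 hz2
    rw [← hasY] at hz2
    have h7 : ‖Y n z - Y n as‖ ≤ 3 * κ := by
      calc ‖Y n z - Y n as‖ = ‖-(Y0 z - Y n z) + (Y0 z - Y0 as) + (Y0 as - Y n as)‖ := by
            congr 1; ring
        _ ≤ _ := norm_add₃_le
        _ ≤ _ := by rw [norm_neg]; linarith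
    linarith
  have hM1 : 4 * κ * M = η / 4 := by rw [hκ]; field_simp; norm_num
  have hM2 : c * M ≤ η / 4 := by
    have : c ≤ η / (4 * M) := min_le_right _ _
    calc c * M ≤ η / (4 * M) * M := mul_le_mul_of_nonneg_right this hMp.le
      _ = η / 4 := by field_simp
  have ha : zs + Lc τ ν (s0, x0) ∈ closedBall as (η / 2) := by
    rw [mem_closedBall, dist_eq_norm]
    have e1 : zs + Lc τ ν (s0, x0) - as = Lc τ ν (0, x0 - xs) := by
      conv_lhs => rw [← hciL as, hcias]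
      rw [add_sub_add_left_eq_sub, ← map_sub]
      simp
    rw [e1]
    have h4 := hLn (0, x0 - xs)
    have h5 : ‖((0, x0 - xs) : ℂ × ℂ)‖ = ‖x0 - xs‖ := by simp [Prod.norm_mk]
    rw [h5] at h4
    nlinarith
  have hb : zs + Lc τ ν (s1, x1) ∈ closedBall as (η / 2) := by
    rw [mem_closedBall, dist_eq_norm]
    have e1 : zs + Lc τ ν (s1, x1) - as = Lc τ ν (s1 - s0, x1 - xs) := by
      conv_lhs => rw [← hciL as, hcias]
      rw [add_sub_add_left_eq_sub, ← map_sub]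
      simp
    rw [e1]
    have h4 := hLn (s1 - s0, x1 - xs)
    have h5 : ‖((s1 - s0, x1 - xs) : ℂ × ℂ)‖ ≤ c + 4 * κ := by
      rw [Prod.norm_mk, max_le_iff, hns]
      refine ⟨by linarith, ?_⟩
      calc ‖x1 - xs‖ = ‖(x1 - x0) + (x0 - xs)‖ := by congr 1; ring
        _ ≤ _ := norm_add_le _ _
        _ ≤ _ := by rw [hns] at hxx; linarith
    nlinarith
  refine ⟨_, ha, _, hb, g0, g1, ⟨ρ, ?_, hρ2⟩, ?_, ?_⟩
  · rw [hns] at hρ
    exact hρ.trans (le_max_right _ _)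
  · exact hq1.trans (mul_le_mul_of_nonneg_right (le_max_left _ _) (norm_nonneg _))
  · exact hq2.trans (mul_le_mul_of_nonneg_right (le_max_left _ _) (norm_nonneg _))

end Vale.Agent.P097.H17
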