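import Vale.Agent.P097.H17.LeafOne
import Vale.Agent.P097.H650.Patch

/-!
# P097, row LEAF (624 #13322 (4)), one box: exact leaves as graphs
-/

set_option linter.all false

open Complex Metric Filter Topology Set

namespace Vale.Agent.P097.H17

/-- `df ∧ dg` in the coordinates `(s, x)` -/
noncomputable def wdg (f g : ℂ × ℂ → ℂ) (v : ℂ × ℂ) : ℂ :=
  fderiv ℂ f v (1, 0) * fderiv ℂ g v (0, 1) - fderiv ℂ f v (0, 1) * fderiv ℂ g v (1, 0)

/-- a function close to the second coordinate on a box -/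
structure Bx (r : ℝ) (g : ℂ × ℂ → ℂ) : Prop where
  r0 : 0 < r
  an : AnalyticOnNhd ℂ g (ball 0 r)
  dx : ∀ v ∈ ball (0 : ℂ × ℂ) r, ‖fderiv ℂ g v (0, 1) - 1‖ ≤ 1 / 8
  ds : ∀ v ∈ ball (0 : ℂ × ℂ) r, ‖fderiv ℂ g v (1, 0)‖ ≤ 1 / 8

variable {r : ℝ} {g f K : ℂ × ℂ → ℂ}

theorem mem_bx {s x : ℂ} : ((s, x) : ℂ × ℂ) ∈ ball (0 : ℂ × ℂ) r ↔ ‖s‖ < r ∧ ‖x‖ < r := by
  rw [mem_ball_zero_iff, Prod.norm_mk, max_lt_iff]


theorem dsnd {s x : ℂ} (hg : AnalyticAt ℂ g (s, x)) :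
    HasDerivAt (fun x => g (s, x)) (fderiv ℂ g (s, x) (0, 1)) x := by
  have h1 := hg.differentiableAt.hasFDerivAt
  have h2 : HasDerivAt (fun x : ℂ => ((s, x) : ℂ × ℂ)) (0, 1) x :=
    (hasDerivAt_const x s).prodMk (hasDerivAt_id x)
  exact h1.comp_hasDerivAt x h2

theorem dfst {s x : ℂ} (hg : AnalyticAt ℂ g (s, x)) :
    HasDerivAt (fun s => g (s, x)) (fderiv ℂ g (s, x) (1, 0)) s := by
  have h1 := hg.differentiableAt.hasFDerivAt
  have h2 : HasDerivAt (fun s : ℂ => ((s, x) : ℂ × ℂ)) (1, 0) s :=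
    (hasDerivAt_id s).prodMk (hasDerivAt_const s x)
  exact h1.comp_hasDerivAt s h2

theorem Bx.lipx (h : Bx r g) {s x x' : ℂ} (hs : ‖s‖ < r) (hx : ‖x‖ < r) (hx' : ‖x'‖ < r) :
    ‖g (s, x) - g (s, x') - (x - x')‖ ≤ 1 / 8 * ‖x - x'‖ := by
  have hd : ∀ y ∈ ball (0 : ℂ) r, HasDerivWithinAt (fun y => g (s, y) - y)
      (fderiv ℂ g (s, y) (0, 1) - 1) (ball 0 r) y := fun y hy =>
    ((dsnd (h.an _ (mem_bx.2 ⟨hs, by simpa using hy⟩))).sub (hasDerivAt_id y)).hasDerivWithinAt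
  have := (convex_ball (0 : ℂ) r).norm_image_sub_le_of_norm_hasDerivWithin_le hd
    (fun y hy => h.dx _ (mem_bx.2 ⟨hs, by simpa using hy⟩)) (by simpa using hx')
    (by simpa using hx)
  calc _ = ‖(g (s, x) - x) - (g (s, x') - x')‖ := by ring_nf
    _ ≤ _ := this

theorem Bx.lips (h : Bx r g) {s s' x : ℂ} (hs : ‖s‖ < r) (hs' : ‖s'‖ < r) (hx : ‖x‖ < r) :
    ‖g (s, x) - g (s', x)‖ ≤ 1 / 8 * ‖s - s'‖ := by
  have hd : ∀ y ∈ ball (0 : ℂ) r, HasDerivWithinAt (fun y => g (y, x))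
      (fderiv ℂ g (y, x) (1, 0)) (ball 0 r) y := fun y hy =>
    (dfst (h.an _ (mem_bx.2 ⟨by simpa using hy, hx⟩))).hasDerivWithinAt
  exact (convex_ball (0 : ℂ) r).norm_image_sub_le_of_norm_hasDerivWithin_le hd
    (fun y hy => h.ds _ (mem_bx.2 ⟨by simpa using hy, hx⟩)) (by simpa using hs')
    (by simpa using hs)

theorem Bx.inj (h : Bx r g) {s x x' : ℂ} (hs : ‖s‖ < r) (hx : ‖x‖ < r) (hx' : ‖x'‖ < r) :
    ‖x - x'‖ ≤ 8 / 7 * ‖g (s, x) - g (s, x')‖ := by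
  have h1 := h.lipx hs hx hx'
  have h2 : ‖x - x'‖ ≤ ‖g (s, x) - g (s, x')‖ + ‖g (s, x) - g (s, x') - (x - x')‖ := by
    calc ‖x - x'‖ = ‖(g (s, x) - g (s, x')) - (g (s, x) - g (s, x') - (x - x'))‖ := by ring_nf
      _ ≤ _ := norm_sub_le _ _
  linarith

theorem Bx.ex (h : Bx r g) {s y : ℂ} (hs : ‖s‖ < r) (hy : ‖y - g (0, 0)‖ ≤ r / 8) :
    ∃ x, ‖x‖ ≤ r / 2 ∧ g (s, x) = y := by
  have hr := h.r0
  have hsub : ∀ x ∈ closedBall (0 : ℂ) (r / 2), ‖x‖ < r := fun x hx => by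
    have : ‖x‖ ≤ r / 2 := by simpa using hx
    linarith
  obtain ⟨x, hx, e⟩ := near_surj (g := fun x => g (s, x)) (a := 0) (β := 1) (w := y)
    (ρ := r / 2) one_ne_zero (by positivity) (fun x hx x' hx' => by
      have := h.lipx hs (hsub x hx) (hsub x' hx')
      simpa using this) (by
      have h1 := h.lips (s := 0) (s' := s) (x := 0) (by simpa using hr) hs (by simpa using hr)
      have h2 : ‖y - g (s, 0)‖ ≤ ‖y - g (0, 0)‖ + ‖g (0, 0) - g (s, 0)‖ := norm_sub_le_norm_sub_add_norm_sub _ _ _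
      have h3 : ‖(0 : ℂ) - s‖ < r := by simpa using hs
      rw [norm_one]
      linarith)
  exact ⟨x, by simpa using hx, e⟩

/-- the leaf through the level `y` -/
theorem Bx.leaf (h : Bx r g) {y : ℂ} (hy : ‖y - g (0, 0)‖ ≤ r / 8) :
    ∃ X : ℂ → ℂ, DifferentiableOn ℂ X (ball 0 r) ∧ (∀ s ∈ ball (0 : ℂ) r, ‖X s‖ ≤ r / 2) ∧
      (∀ s ∈ ball (0 : ℂ) r, g (s, X s) = y) ∧
      (∀ s ∈ ball (0 : ℂ) r, deriv X s * fderiv ℂ g (s, X s) (0, 1) =
        - fderiv ℂ g (s, X s) (1, 0)) := by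
  have hr := h.r0
  choose! X hX1 hX2 using fun s (hs : s ∈ ball (0 : ℂ) r) =>
    h.ex (s := s) (by simpa using hs) hy
  have hlt : ∀ s ∈ ball (0 : ℂ) r, ‖X s‖ < r := fun s hs => by linarith [hX1 s hs]
  have hmem : ∀ s ∈ ball (0 : ℂ) r, ((s, X s) : ℂ × ℂ) ∈ ball (0 : ℂ × ℂ) r := fun s hs =>
    mem_bx.2 ⟨by simpa using hs, hlt s hs⟩
  have hd : ∀ s ∈ ball (0 : ℂ) r, DifferentiableAt ℂ X s := by
    intro s hs
    have ha := h.an _ (hmem s hs)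
    have hne : fderiv ℂ g (s, X s) (0, 1) ≠ 0 := by
      intro h0
      have := h.dx _ (hmem s hs)
      rw [h0] at this
      norm_num at this
    obtain ⟨φ, hφa, hφ0, hφ1, -⟩ := H650.ift_scalar (F := fun v => g v - y) (x0 := s)
      (y0 := X s) (ha.sub analyticAt_const) (by simp [hX2 s hs]) (by
        rw [((dsnd ha).sub_const y).deriv]
        exact hne)
    have hev : X =ᶠ[𝓝 s] φ := by
      have h1 : ∀ᶠ s' in 𝓝 s, ‖φ s'‖ < r := by
        have h0 : ‖φ s‖ < r := by rw [hφ0]; exact hlt s hs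
        exact (hφa.continuousAt.norm).eventually (gt_mem_nhds h0)
      filter_upwards [hφ1, h1, isOpen_ball.mem_nhds hs] with s' e1 e2 e3
      have := h.inj (by simpa using e3) (hlt s' e3) e2
      rw [hX2 s' e3, sub_eq_zero.1 e1, sub_self, norm_zero, mul_zero, norm_le_zero_iff] at this
      exact sub_eq_zero.1 this
    exact hφa.differentiableAt.congr_of_eventuallyEq hev
  refine ⟨X, fun s hs => (hd s hs).differentiableWithinAt, hX1, hX2, fun s hs => ?_⟩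
  have ha := (h.an _ (hmem s hs)).differentiableAt.hasFDerivAt
  have h2 : HasDerivAt (fun s : ℂ => ((s, X s) : ℂ × ℂ)) (1, deriv X s) s :=
    (hasDerivAt_id s).prodMk (hd s hs).hasDerivAt
  have h3 := ha.comp_hasDerivAt s h2
  have h4 : HasDerivAt (fun s => g (s, X s)) 0 s := by
    refine (hasDerivAt_const s y).congr_of_eventuallyEq ?_
    filter_upwards [isOpen_ball.mem_nhds hs] with s' hs'
    exact hX2 s' hs'
  have h5 := h3.unique h4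
  have e : ((1, deriv X s) : ℂ × ℂ) = (1, 0) + deriv X s • ((0, 1) : ℂ × ℂ) := by
    ext <;> simp
  rw [e, map_add, map_smul, smul_eq_mul] at h5
  linear_combination h5

/-- the data of a box with the line functions -/
structure Ar (r : ℝ) (g f K : ℂ × ℂ → ℂ) (e B : ℂ → ℂ) (D : ℂ) : Prop where
  bx : Bx r g
  fa : AnalyticOnNhd ℂ f (ball 0 r)
  f0 : ∀ v ∈ ball (0 : ℂ × ℂ) r, f v ≠ 0
  e0 : ∀ v ∈ ball (0 : ℂ × ℂ) r, e (g v) ≠ 0
  ar : ∀ v ∈ ball (0 : ℂ × ℂ) r,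
    (1 - (e (g v) * f v)⁻¹ ^ 2) / 2 * (e (g v) * wdg f g v) = B (g v) * K v
  K0 : ∀ v ∈ ball (0 : ℂ × ℂ) r, ‖K v / fderiv ℂ g v (0, 1) - D‖ ≤ ‖D‖ / 8

theorem Bx.dx0 (h : Bx r g) {v : ℂ × ℂ} (hv : v ∈ ball (0 : ℂ × ℂ) r) :
    fderiv ℂ g v (0, 1) ≠ 0 := by
  intro h0
  have := h.dx v hv
  rw [h0] at this
  norm_num at this

/-- **LEAF in one box** -/
theorem Ar.box {e B : ℂ → ℂ} {D : ℂ} (h : Ar r g f K e B D) {z : ℂ × ℂ}
    (hz : z ∈ ball (0 : ℂ × ℂ) (r / 16)) {s0 s1 : ℂ} (hs0 : ‖s0‖ < r / 2) (hs1 : ‖s1‖ < r / 2)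
    (h01 : s1 ≠ s0) (hd : ‖s1 - s0‖ ≤ r / 300) :
    ∃ x0 x1 : ℂ, ‖x0‖ < r ∧ ‖x1‖ < r ∧ g (s0, x0) = g z ∧ g (s1, x1) = g z ∧
      ‖x1 - x0‖ ≤ ‖s1 - s0‖ ∧
      (∃ ρ : ℂ, ‖ρ‖ ≤ 6000 * r / ‖s1 - s0‖ ∧
        f z ^ 2 = f (s0, x0) ^ 2 + ρ * (f (s1, x1) ^ 2 - f (s0, x0) ^ 2)) ∧
      ‖f z‖ ≤ 21 * ‖f (s0, x0)‖ ∧ ‖f (s0, x0)‖ ≤ 21 * ‖f z‖ := by
  have hr := h.bx.r0
  obtain ⟨z1, z2⟩ := z
  have hz' := mem_bx.1 hz
  have hz1 : ‖z1‖ < r := by linarith [hz'.1]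
  have hz2 : ‖z2‖ < r := by linarith [hz'.2]
  have hy : ‖g (z1, z2) - g (0, 0)‖ ≤ r / 8 := by
    have h0 : ‖(0 : ℂ)‖ < r := by simpa using hr
    have h1 := h.bx.lipx (s := z1) (x := z2) (x' := 0) hz1 hz2 h0
    have h2 := h.bx.lips (s := z1) (s' := 0) (x := 0) hz1 h0 h0
    simp only [sub_zero] at h1 h2
    have h3 : ‖g (z1, z2) - g (0, 0)‖ ≤
        ‖g (z1, z2) - g (z1, 0) - z2‖ + ‖z2‖ + ‖g (z1, 0) - g (0, 0)‖ := by
      calc _ = ‖(g (z1, z2) - g (z1, 0) - z2) + z2 + (g (z1, 0) - g (0, 0))‖ := by ring_nf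
        _ ≤ _ := norm_add₃_le
    linarith [hz'.1, hz'.2]
  obtain ⟨X, hXd, hX1, hX2, hX3⟩ := h.bx.leaf hy
  have hlt : ∀ s ∈ ball (0 : ℂ) r, ‖X s‖ < r := fun s hs => by linarith [hX1 s hs]
  have hmem : ∀ s ∈ ball (0 : ℂ) r, ((s, X s) : ℂ × ℂ) ∈ ball (0 : ℂ × ℂ) r := fun s hs =>
    mem_bx.2 ⟨by simpa using hs, hlt s hs⟩
  -- the point `z` is on the leaf
  have hzX : X z1 = z2 := by
    have hb : z1 ∈ ball (0 : ℂ) r := by simpa using hz1
    have := h.bx.inj hz1 (hlt z1 hb) hz2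
    rw [hX2 z1 hb, sub_self, norm_zero, mul_zero, norm_le_zero_iff] at this
    exact sub_eq_zero.1 this
  set y := g (z1, z2) with hydef
  -- the function along the leaf
  set F : ℂ → ℂ := fun s => f (s, X s) with hF
  have hFd : ∀ s ∈ ball (0 : ℂ) r, HasDerivAt F
      (fderiv ℂ f (s, X s) (1, 0) + deriv X s * fderiv ℂ f (s, X s) (0, 1)) s := by
    intro s hs
    have h1 := (h.fa _ (hmem s hs)).differentiableAt.hasFDerivAt
    have h2 : HasDerivAt (fun s : ℂ => ((s, X s) : ℂ × ℂ)) (1, deriv X s) s :=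
      (hasDerivAt_id s).prodMk
        (hXd.differentiableAt (isOpen_ball.mem_nhds hs)).hasDerivAt
    have h3 := h1.comp_hasDerivAt s h2
    have e1 : ((1, deriv X s) : ℂ × ℂ) = (1, 0) + deriv X s • ((0, 1) : ℂ × ℂ) := by
      ext <;> simp
    rw [e1, map_add, map_smul, smul_eq_mul] at h3
    exact h3
  have hey : e y ≠ 0 := h.e0 _ (ball_subset_ball (by linarith) hz)
  have hLf : Lf 0 r (B y * D) (fun s => e y * F s) := by
    refine ⟨hr, ?_, ?_, ?_⟩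
    · exact fun s hs => ((hFd s hs).const_mul (e y)).differentiableAt.differentiableWithinAt
    · intro s hs
      exact mul_ne_zero hey (h.f0 _ (hmem s hs))
    · intro s hs
      have hgx := h.bx.dx0 (hmem s hs)
      have h1 := h.ar _ (hmem s hs)
      rw [hX2 s hs] at h1
      have h2 := hX3 s hs
      rw [((hFd s hs).const_mul (e y)).deriv]
      have e1 : (1 - (e y * F s)⁻¹ ^ 2) / 2 * (e y * (fderiv ℂ f (s, X s) (1, 0) +
          deriv X s * fderiv ℂ f (s, X s) (0, 1))) =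
          B y * (K (s, X s) / fderiv ℂ g (s, X s) (0, 1)) := by
        rw [← mul_div_assoc, eq_div_iff hgx, ← h1]
        simp only [wdg, hF]
        linear_combination ((1 - (e y * f (s, X s))⁻¹ ^ 2) / 2 * e y *
          fderiv ℂ f (s, X s) (0, 1)) * h2
      rw [e1, ← mul_sub, norm_mul, norm_mul, mul_div_assoc]
      exact mul_le_mul_of_nonneg_left (h.K0 _ (hmem s hs)) (norm_nonneg _)
  have b0 : s0 ∈ ball (0 : ℂ) (r / 2) := by simpa using hs0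
  have b1 : s1 ∈ ball (0 : ℂ) (r / 2) := by simpa using hs1
  have b2 : z1 ∈ ball (0 : ℂ) (r / 2) := by
    have : ‖z1‖ < r / 2 := by linarith [hz'.1]
    simpa using this
  have c0 : s0 ∈ ball (0 : ℂ) r := ball_subset_ball (by linarith) b0
  have c1 : s1 ∈ ball (0 : ℂ) r := ball_subset_ball (by linarith) b1
  obtain ⟨⟨ρ, hρ, hρ2⟩, hq1, hq2⟩ := hLf.main b0 b1 b2 h01 hd
  have hz2' : F z1 = f (z1, z2) := by simp only [hF, hzX]
  refine ⟨X s0, X s1, hlt s0 c0, hlt s1 c1, hX2 s0 c0, hX2 s1 c1, ?_, ⟨ρ, hρ, ?_⟩, ?_, ?_⟩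
  · -- slope of the leaf
    have hb : ∀ s ∈ ball (0 : ℂ) r, ‖deriv X s‖ ≤ 1 := by
      intro s hs
      have h1 := h.bx.dx _ (hmem s hs)
      have h2 := h.bx.ds _ (hmem s hs)
      have h3 : 7 / 8 ≤ ‖fderiv ℂ g (s, X s) (0, 1)‖ := by
        have := norm_sub_norm_le (1 : ℂ) (fderiv ℂ g (s, X s) (0, 1))
        rw [norm_sub_rev, norm_one] at this
        linarith
      have h4 : ‖deriv X s‖ * ‖fderiv ℂ g (s, X s) (0, 1)‖ ≤ 1 / 8 := by
        rw [← norm_mul, hX3 s hs, norm_neg]; exact h2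
      have h5 := norm_nonneg (deriv X s)
      nlinarith
    have := (convex_ball (0 : ℂ) r).norm_image_sub_le_of_norm_deriv_le
      (fun s hs => hXd.differentiableAt (isOpen_ball.mem_nhds hs)) hb c0 c1
    linarith
  · have h1 := hρ2
    simp only [mul_pow] at h1
    have h2 : e y ^ 2 ≠ 0 := pow_ne_zero 2 hey
    refine mul_left_cancel₀ h2 ?_
    rw [← hz2']
    linear_combination h1
  · have h1 := hq1
    simp only [norm_mul] at h1
    rw [← hz2']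
    refine le_of_mul_le_mul_left ?_ (norm_pos_iff.2 hey)
    linarith
  · have h1 := hq2
    simp only [norm_mul] at h1
    rw [← hz2']
    refine le_of_mul_le_mul_left ?_ (norm_pos_iff.2 hey)
    linarith

end Vale.Agent.P097.H17
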