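import Mathlib

/-!
# P097, row LEAF (624 #13322 (4)), one variable part

`E` holomorphic and zero free on `ball c R`, `C = (E + 1/E)/2` with `C' = β (1 + O(1/8))`.
Then `E` has bounded distortion on the half disc, and
`E s² - E a² = ρ (E b² - E a²)` with `ρ` bounded.
-/

set_option linter.all false

open Complex Metric Filter Topology Set

namespace Vale.Agent.P097.H17

/-- near-linear maps are onto -/
theorem near_surj {g : ℂ → ℂ} {a β w : ℂ} {ρ : ℝ} (hβ : β ≠ 0) (hρ : 0 ≤ ρ)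
    (h : ∀ x ∈ closedBall a ρ, ∀ y ∈ closedBall a ρ,
      ‖g x - g y - β * (x - y)‖ ≤ ‖β‖ / 8 * ‖x - y‖)
    (hw : ‖w - g a‖ ≤ 7 / 8 * ‖β‖ * ρ) : ∃ x ∈ closedBall a ρ, g x = w := by
  have hb : 0 < ‖β‖ := norm_pos_iff.2 hβ
  set T : ℂ → ℂ := fun x => x - (g x - w) / β with hT
  have haT : a ∈ closedBall a ρ := mem_closedBall_self hρ
  have hd : ∀ x ∈ closedBall a ρ, ∀ y ∈ closedBall a ρ, ‖T x - T y‖ ≤ 1 / 8 * ‖x - y‖ := by
    intro x hx y hy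
    have e : T x - T y = -(g x - g y - β * (x - y)) / β := by
      simp only [hT]; field_simp; ring
    rw [e, norm_div, norm_neg, div_le_iff₀ hb]
    calc _ ≤ _ := h x hx y hy
      _ = _ := by ring
  have hm : MapsTo T (closedBall a ρ) (closedBall a ρ) := by
    intro x hx
    have h1 := hd x hx a haT
    have h2 : ‖T a - a‖ ≤ 7 / 8 * ρ := by
      have e : T a - a = (w - g a) / β := by simp only [hT]; field_simp; ring
      rw [e, norm_div, div_le_iff₀ hb]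
      linarith
    have h3 : ‖x - a‖ ≤ ρ := by rw [← dist_eq_norm]; exact mem_closedBall.1 hx
    rw [mem_closedBall, dist_eq_norm]
    calc ‖T x - a‖ = ‖(T x - T a) + (T a - a)‖ := by ring_nf
      _ ≤ ‖T x - T a‖ + ‖T a - a‖ := norm_add_le _ _
      _ ≤ ρ := by linarith
  have hc : IsComplete (closedBall a ρ) := isClosed_closedBall.isComplete
  have hk : ContractingWith (1 / 8 : NNReal) (hm.restrict T _ _) := by
    refine ⟨by norm_num, LipschitzWith.of_dist_le_mul fun x y => ?_⟩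
    have := hd x x.2 y y.2
    rw [Subtype.dist_eq, Subtype.dist_eq, dist_eq_norm, dist_eq_norm]
    simpa using this
  obtain ⟨x, hx, hfix, -⟩ := ContractingWith.exists_fixedPoint' hc hm hk haT (edist_ne_top _ _)
  refine ⟨x, hx, ?_⟩
  have h1 : T x = x := hfix
  have h2 : (g x - w) / β = 0 := by
    have : x - (g x - w) / β = x := h1
    linear_combination -this
  rcases div_eq_zero_iff.1 h2 with h | h
  · exact sub_eq_zero.1 h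
  · exact absurd h hβ

/-- the standing hypotheses -/
structure Lf (c : ℂ) (R : ℝ) (β : ℂ) (E : ℂ → ℂ) : Prop where
  R0 : 0 < R
  dE : DifferentiableOn ℂ E (ball c R)
  ne : ∀ s ∈ ball c R, E s ≠ 0
  ar : ∀ s ∈ ball c R, ‖(1 - (E s)⁻¹ ^ 2) / 2 * deriv E s - β‖ ≤ ‖β‖ / 8

variable {c β : ℂ} {R : ℝ} {E : ℂ → ℂ}

/-- the cosine -/
noncomputable def Cs (E : ℂ → ℂ) (s : ℂ) : ℂ := (E s + (E s)⁻¹) / 2

/-- the sine -/
noncomputable def Sn (E : ℂ → ℂ) (s : ℂ) : ℂ := (E s - (E s)⁻¹) / 2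

theorem Lf.hasE (h : Lf c R β E) {s : ℂ} (hs : s ∈ ball c R) : HasDerivAt E (deriv E s) s :=
  (h.dE.differentiableAt (isOpen_ball.mem_nhds hs)).hasDerivAt

theorem Lf.hasC (h : Lf c R β E) {s : ℂ} (hs : s ∈ ball c R) :
    HasDerivAt (Cs E) ((1 - (E s)⁻¹ ^ 2) / 2 * deriv E s) s := by
  have h1 := h.hasE hs
  have h2 := h1.inv (h.ne s hs)
  have h3 := (h1.add h2).div_const 2
  refine h3.congr_deriv ?_
  have := h.ne s hs
  field_simp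
  ring

theorem Lf.lip (h : Lf c R β E) {x y : ℂ} (hx : x ∈ ball c R) (hy : y ∈ ball c R) :
    ‖Cs E x - Cs E y - β * (x - y)‖ ≤ ‖β‖ / 8 * ‖x - y‖ := by
  have hd : ∀ s ∈ ball c R, HasDerivWithinAt (fun s => Cs E s - β * s)
      ((1 - (E s)⁻¹ ^ 2) / 2 * deriv E s - β) (ball c R) s := fun s hs =>
    ((h.hasC hs).sub (by simpa using (hasDerivAt_id s).const_mul β)).hasDerivWithinAt
  have := (convex_ball c R).norm_image_sub_le_of_norm_hasDerivWithin_le hd h.ar hy hx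
  calc _ = ‖(Cs E x - β * x) - (Cs E y - β * y)‖ := by ring_nf
    _ ≤ _ := this

theorem Lf.ne_sg (h : Lf c R β E) (hβ : β ≠ 0) {s : ℂ} (hs : s ∈ ball c R) {σ : ℂ}
    (hσ : σ ^ 2 = 1) : Cs E s ≠ σ := by
  intro hc
  have h0 := h.ne s hs
  have h1 : (E s - σ) ^ 2 = 0 := by
    have : E s * E s + 1 = 2 * σ * E s := by
      have h2 : (E s + (E s)⁻¹) / 2 = σ := hc
      field_simp at h2
      linear_combination h2
    linear_combination this + hσ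
  have h2 : E s = σ := sub_eq_zero.1 (pow_eq_zero_iff (by norm_num) |>.1 h1)
  have h3 := h.ar s hs
  have h4 : (E s)⁻¹ ^ 2 = 1 := by rw [h2, inv_pow, hσ, inv_one]
  rw [h4] at h3
  simp at h3
  have h5 : 0 < ‖β‖ := norm_pos_iff.2 hβ
  linarith

/-- (b): the cosine stays away from `±1` -/
theorem Lf.far (h : Lf c R β E) (hβ : β ≠ 0) {s : ℂ} (hs : s ∈ ball c (R / 2)) {σ : ℂ}
    (hσ : σ ^ 2 = 1) : 3 / 8 * (‖β‖ * R) ≤ ‖Cs E s - σ‖ := by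
  have hR := h.R0
  by_contra hlt
  rw [not_le] at hlt
  have hsub : closedBall s (7 / 16 * R) ⊆ ball c R := by
    intro x hx
    rw [mem_ball, dist_eq_norm] at hs ⊢
    rw [mem_closedBall, dist_eq_norm] at hx
    calc ‖x - c‖ = ‖(x - s) + (s - c)‖ := by ring_nf
      _ ≤ _ := norm_add_le _ _
      _ < R := by linarith
  obtain ⟨x, hx, e⟩ := near_surj (g := Cs E) (a := s) (w := σ) (ρ := 7 / 16 * R) hβ
    (by positivity) (fun x hx y hy => h.lip (hsub hx) (hsub hy)) (by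
      rw [norm_sub_rev]
      have := norm_nonneg β
      nlinarith [mul_nonneg this hR.le])
  exact h.ne_sg hβ (hsub hx) hσ e

theorem Sn_sq {s : ℂ} (h0 : E s ≠ 0) : Sn E s ^ 2 = (Cs E s - 1) * (Cs E s + 1) := by
  simp only [Sn, Cs]
  field_simp
  ring

theorem Sn_norm {s : ℂ} (h0 : E s ≠ 0) : ‖Sn E s‖ ^ 2 = ‖Cs E s - 1‖ * ‖Cs E s + 1‖ := by
  rw [← norm_pow, Sn_sq h0, norm_mul]

theorem Lf.m1 (h : Lf c R β E) (hβ : β ≠ 0) {s : ℂ} (hs : s ∈ ball c (R / 2)) :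
    3 / 8 * (‖β‖ * R) ≤ ‖Cs E s - 1‖ := h.far hβ hs (by norm_num)

theorem Lf.m2 (h : Lf c R β E) (hβ : β ≠ 0) {s : ℂ} (hs : s ∈ ball c (R / 2)) :
    3 / 8 * (‖β‖ * R) ≤ ‖Cs E s + 1‖ := by
  have := h.far hβ hs (σ := -1) (by norm_num)
  rwa [sub_neg_eq_add] at this

theorem Lf.half (h : Lf c R β E) {s : ℂ} (hs : s ∈ ball c (R / 2)) : s ∈ ball c R :=
  ball_subset_ball (by linarith [h.R0]) hs

theorem Lf.mS2 (h : Lf c R β E) (hβ : β ≠ 0) {s : ℂ} (hs : s ∈ ball c (R / 2)) :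
    3 / 8 * (‖β‖ * R) ≤ ‖Sn E s‖ ^ 2 := by
  have h1 := h.m1 hβ hs
  have h2 := h.m2 hβ hs
  rw [Sn_norm (h.ne s (h.half hs))]
  have h3 : 2 ≤ ‖Cs E s - 1‖ + ‖Cs E s + 1‖ := by
    have : ‖(Cs E s + 1) - (Cs E s - 1)‖ ≤ _ := norm_sub_le (Cs E s + 1) (Cs E s - 1)
    have e : (Cs E s + 1) - (Cs E s - 1) = 2 := by ring
    rw [e] at this
    simp at this
    linarith
  have h4 := norm_nonneg (Cs E s - 1)
  have h5 := norm_nonneg (Cs E s + 1)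
  rcases le_total 1 ‖Cs E s - 1‖ with h6 | h6
  · nlinarith
  · have h7 : 1 ≤ ‖Cs E s + 1‖ := by linarith
    nlinarith

theorem Lf.mS (h : Lf c R β E) (hβ : β ≠ 0) {s : ℂ} (hs : s ∈ ball c (R / 2)) :
    3 / 8 * (‖β‖ * R) ≤ ‖Sn E s‖ := by
  have h1 := h.m1 hβ hs
  have h2 := h.m2 hβ hs
  have hm : 0 ≤ 3 / 8 * (‖β‖ * R) := by have := h.R0; positivity
  refine abs_le_of_sq_le_sq' ?_ (norm_nonneg _) |>.2
  rw [Sn_norm (h.ne s (h.half hs)), sq]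
  exact mul_le_mul h1 h2 hm (norm_nonneg _)

theorem Lf.dist_half {s : ℂ} (hs : s ∈ ball c (R / 2)) {s' : ℂ} (hs' : s' ∈ ball c (R / 2)) :
    ‖s - s'‖ ≤ R := by
  rw [mem_ball, dist_eq_norm] at hs hs'
  calc ‖s - s'‖ = ‖(s - c) - (s' - c)‖ := by ring_nf
    _ ≤ _ := norm_sub_le _ _
    _ ≤ R := by linarith

theorem Lf.lipC (h : Lf c R β E) {s s' : ℂ} (hs : s ∈ ball c R) (hs' : s' ∈ ball c R) :
    ‖Cs E s - Cs E s'‖ ≤ 9 / 8 * ‖β‖ * ‖s - s'‖ := by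
  have h1 := h.lip hs hs'
  calc ‖Cs E s - Cs E s'‖ = ‖(Cs E s - Cs E s' - β * (s - s')) + β * (s - s')‖ := by ring_nf
    _ ≤ _ := norm_add_le _ _
    _ ≤ ‖β‖ / 8 * ‖s - s'‖ + ‖β‖ * ‖s - s'‖ := by rw [norm_mul]; linarith
    _ = _ := by ring

theorem Lf.lowC (h : Lf c R β E) {s s' : ℂ} (hs : s ∈ ball c R) (hs' : s' ∈ ball c R) :
    7 / 8 * ‖β‖ * ‖s - s'‖ ≤ ‖Cs E s - Cs E s'‖ := by
  have h1 := h.lip hs hs'
  have h2 : ‖β * (s - s')‖ ≤ ‖Cs E s - Cs E s'‖ + ‖Cs E s - Cs E s' - β * (s - s')‖ := by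
    calc ‖β * (s - s')‖ = ‖(Cs E s - Cs E s') - (Cs E s - Cs E s' - β * (s - s'))‖ := by ring_nf
      _ ≤ _ := norm_sub_le _ _
  rw [norm_mul] at h2
  linarith

theorem Lf.cmp (h : Lf c R β E) (hβ : β ≠ 0) {s s' : ℂ} (hs : s ∈ ball c (R / 2))
    (hs' : s' ∈ ball c (R / 2)) : ‖Sn E s'‖ ≤ 4 * ‖Sn E s‖ := by
  have hR := h.R0
  have h1 := h.m1 hβ hs
  have h2 := h.m2 hβ hs
  have h3 := h.lipC (h.half hs') (h.half hs)
  have h4 : ‖s' - s‖ ≤ R := Lf.dist_half hs' hs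
  have h5 : 9 / 8 * ‖β‖ * ‖s' - s‖ ≤ 3 * (3 / 8 * (‖β‖ * R)) := by
    have := norm_nonneg β
    nlinarith [mul_le_mul_of_nonneg_left h4 this]
  have h6 : ‖Cs E s' - 1‖ ≤ 4 * ‖Cs E s - 1‖ := by
    calc ‖Cs E s' - 1‖ = ‖(Cs E s' - Cs E s) + (Cs E s - 1)‖ := by ring_nf
      _ ≤ _ := norm_add_le _ _
      _ ≤ _ := by linarith
  have h7 : ‖Cs E s' + 1‖ ≤ 4 * ‖Cs E s + 1‖ := by
    calc ‖Cs E s' + 1‖ = ‖(Cs E s' - Cs E s) + (Cs E s + 1)‖ := by ring_nf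
      _ ≤ _ := norm_add_le _ _
      _ ≤ _ := by linarith
  refine abs_le_of_sq_le_sq' ?_ (by positivity) |>.2
  rw [Sn_norm (h.ne s' (h.half hs')), mul_pow, Sn_norm (h.ne s (h.half hs))]
  calc _ ≤ (4 * ‖Cs E s - 1‖) * (4 * ‖Cs E s + 1‖) :=
        mul_le_mul h6 h7 (norm_nonneg _) (by positivity)
    _ = _ := by ring

theorem Lf.dEn (h : Lf c R β E) {s : ℂ} (hs : s ∈ ball c R) :
    ‖Sn E s‖ * ‖deriv E s‖ ≤ 9 / 8 * ‖β‖ * ‖E s‖ := by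
  have h0 := h.ne s hs
  have e : Sn E s * deriv E s = (1 - (E s)⁻¹ ^ 2) / 2 * deriv E s * E s := by
    simp only [Sn]; field_simp
  have h1 : ‖(1 - (E s)⁻¹ ^ 2) / 2 * deriv E s‖ ≤ 9 / 8 * ‖β‖ := by
    have := h.ar s hs
    calc _ = ‖((1 - (E s)⁻¹ ^ 2) / 2 * deriv E s - β) + β‖ := by ring_nf
      _ ≤ _ := norm_add_le _ _
      _ ≤ _ := by linarith
  rw [← norm_mul, e, norm_mul]
  exact mul_le_mul_of_nonneg_right h1 (norm_nonneg _)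

theorem Lf.dE3 (h : Lf c R β E) (hβ : β ≠ 0) {s : ℂ} (hs : s ∈ ball c (R / 2)) :
    ‖deriv E s‖ ≤ 3 / R * ‖E s‖ := by
  have hR := h.R0
  have hb : 0 < ‖β‖ := norm_pos_iff.2 hβ
  have h1 := h.dEn (h.half hs)
  have h2 := h.mS hβ hs
  have h3 : 3 / 8 * (‖β‖ * R) * ‖deriv E s‖ ≤ 9 / 8 * ‖β‖ * ‖E s‖ :=
    (mul_le_mul_of_nonneg_right h2 (norm_nonneg _)).trans h1
  rw [div_mul_eq_mul_div, le_div_iff₀ hR]
  have h4 : ‖β‖ * (3 / 8 * (‖deriv E s‖ * R)) ≤ ‖β‖ * (9 / 8 * ‖E s‖) := by nlinarith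
  have h5 := le_of_mul_le_mul_left h4 hb
  linarith

theorem Lf.gron (h : Lf c R β E) (hβ : β ≠ 0) {s s' : ℂ} (hs : s ∈ ball c (R / 2))
    (hs' : s' ∈ ball c (R / 2)) : ‖E s‖ ≤ Real.exp 3 * ‖E s'‖ := by
  have hR := h.R0
  set g : ℝ → ℂ := fun t => E (s' + t * (s - s')) with hg
  have hmem : ∀ t ∈ Icc (0 : ℝ) 1, s' + (t : ℂ) * (s - s') ∈ ball c (R / 2) := by
    intro t ht
    have := (convex_ball c (R / 2)) hs' hs (sub_nonneg.2 ht.2) ht.1 (by ring)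
    convert this using 1
    simp only [Complex.real_smul, ofReal_sub, ofReal_one]
    ring
  have hder : ∀ t ∈ Icc (0 : ℝ) 1, HasDerivAt g (deriv E (s' + t * (s - s')) * (s - s')) t := by
    intro t ht
    have h1 := h.hasE (h.half (hmem t ht))
    have h2 : HasDerivAt (fun t : ℝ => s' + (t : ℂ) * (s - s')) (s - s') t := by
      have := ((hasDerivAt_id t).ofReal_comp.mul_const (s - s')).const_add s'
      simpa using this
    exact h1.comp_of_eq t h2 rfl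
  have key := norm_le_gronwallBound_of_norm_deriv_right_le (f := g)
    (f' := fun t => deriv E (s' + t * (s - s')) * (s - s')) (δ := ‖E s'‖) (K := 3) (ε := 0)
    (a := 0) (b := 1) (fun t ht => (hder t ht).continuousAt.continuousWithinAt)
    (fun t ht => (hder t (Ico_subset_Icc_self ht)).hasDerivWithinAt) (by simp [hg])
    (fun t ht => by
      have h1 := h.dE3 hβ (hmem t (Ico_subset_Icc_self ht))
      have h2 : ‖s - s'‖ ≤ R := Lf.dist_half hs hs'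
      rw [norm_mul, add_zero]
      calc _ ≤ (3 / R * ‖E (s' + t * (s - s'))‖) * R :=
            mul_le_mul h1 h2 (norm_nonneg _) (by positivity)
        _ = 3 * ‖g t‖ := by simp only [hg]; field_simp) 1 (right_mem_Icc.2 zero_le_one)
  have e1 : g 1 = E s := by simp [hg]
  rw [e1, gronwallBound_ε0] at key
  have e2 : Real.exp (3 * (1 - 0)) = Real.exp 3 := by norm_num
  rw [e2] at key
  linarith [mul_comm ‖E s'‖ (Real.exp 3)]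

theorem exp3_lt : Real.exp 3 < 20.1 := by
  have h : Real.exp 3 = Real.exp 1 ^ 3 := by rw [← Real.exp_nat_mul]; norm_num
  rw [h]
  have h1 := Real.exp_one_lt_d9
  have h0 := Real.exp_pos 1
  calc Real.exp 1 ^ 3 ≤ 2.7182818286 ^ 3 := pow_le_pow_left₀ h0.le h1.le 3
    _ < 20.1 := by norm_num

theorem Lf.S0pos (h : Lf c R β E) (hβ : β ≠ 0) {s : ℂ} (hs : s ∈ ball c (R / 2)) :
    0 < ‖Sn E s‖ := by
  have := h.mS hβ hs
  have hR := h.R0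
  have hb : 0 < ‖β‖ := norm_pos_iff.2 hβ
  have : 0 < 3 / 8 * (‖β‖ * R) := by positivity
  linarith

/-- `‖β‖ R ≤ (64/9) S² ‖E‖` -/
theorem Lf.key (h : Lf c R β E) (hβ : β ≠ 0) {s : ℂ} (hs : s ∈ ball c (R / 2)) :
    9 * (‖β‖ * R) ≤ 64 * (‖Sn E s‖ ^ 2 * ‖E s‖) := by
  have h1 := h.mS hβ hs
  have h2 := h.mS2 hβ hs
  have h0 : 0 < ‖E s‖ := norm_pos_iff.2 (h.ne s (h.half hs))
  have hS := h.S0pos hβ hs
  rcases le_total (1 / 2) ‖E s‖ with h3 | h3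
  · have : ‖Sn E s‖ ^ 2 * (1 / 2) ≤ ‖Sn E s‖ ^ 2 * ‖E s‖ :=
      mul_le_mul_of_nonneg_left h3 (by positivity)
    have h4 : 0 ≤ ‖Sn E s‖ ^ 2 * ‖E s‖ := by positivity
    linarith
  · have h4 : 3 / 8 ≤ ‖Sn E s‖ * ‖E s‖ := by
      have e : Sn E s * E s = (E s ^ 2 - 1) / 2 := by
        have := h.ne s (h.half hs)
        simp only [Sn]; field_simp
      rw [← norm_mul, e, norm_div]
      have h5 : 1 - ‖E s‖ ^ 2 ≤ ‖E s ^ 2 - 1‖ := by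
        have := norm_sub_norm_le (1 : ℂ) (E s ^ 2)
        rw [norm_one, norm_pow, norm_sub_rev] at this
        exact this
      have h6 : ‖E s‖ ^ 2 ≤ 1 / 4 := by nlinarith
      simp only [norm_ofNat]
      linarith
    have h5 : ‖Sn E s‖ * (3 / 8) ≤ ‖Sn E s‖ * (‖Sn E s‖ * ‖E s‖) :=
      mul_le_mul_of_nonneg_left h4 hS.le
    nlinarith

theorem Lf.dE4 (h : Lf c R β E) (hβ : β ≠ 0) {s s0 : ℂ} (hs : s ∈ ball c (R / 2))
    (hs0 : s0 ∈ ball c (R / 2)) :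
    ‖deriv E s‖ ≤ 9 / 2 * ‖β‖ * (Real.exp 3 * ‖E s0‖) / ‖Sn E s0‖ := by
  have hS := h.S0pos hβ hs0
  rw [le_div_iff₀ hS]
  have h1 := h.dEn (h.half hs)
  have h2 := h.cmp hβ hs hs0
  have h3 := h.gron hβ hs hs0
  have hb := norm_nonneg β
  have hd := norm_nonneg (deriv E s)
  calc ‖deriv E s‖ * ‖Sn E s0‖ ≤ ‖deriv E s‖ * (4 * ‖Sn E s‖) := mul_le_mul_of_nonneg_left h2 hd
    _ = 4 * (‖Sn E s‖ * ‖deriv E s‖) := by ring
    _ ≤ 4 * (9 / 8 * ‖β‖ * ‖E s‖) := by linarith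
    _ ≤ 4 * (9 / 8 * ‖β‖ * (Real.exp 3 * ‖E s0‖)) := by
        have : 9 / 8 * ‖β‖ * ‖E s‖ ≤ 9 / 8 * ‖β‖ * (Real.exp 3 * ‖E s0‖) :=
          mul_le_mul_of_nonneg_left h3 (by positivity)
        linarith
    _ = _ := by ring

/-- upper bound for the square -/
theorem Lf.up2 (h : Lf c R β E) (hβ : β ≠ 0) {s0 s2 : ℂ} (hs0 : s0 ∈ ball c (R / 2))
    (hs2 : s2 ∈ ball c (R / 2)) :
    ‖E s2 ^ 2 - E s0 ^ 2‖ * ‖Sn E s0‖ ≤ 9 * Real.exp 3 ^ 2 * (‖β‖ * R) * ‖E s0‖ ^ 2 := by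
  have hS := h.S0pos hβ hs0
  have hd : ∀ s ∈ ball c (R / 2), HasDerivWithinAt (fun s => E s ^ 2)
      (2 * E s * deriv E s) (ball c (R / 2)) s := fun s hs => by
    have h1 := (h.hasE (h.half hs)).mul (h.hasE (h.half hs))
    have h2 : HasDerivAt (fun s => E s ^ 2) (2 * E s * deriv E s) s := by
      have e : (fun s => E s ^ 2) = E * E := by ext x; simp [sq]
      rw [e]
      exact h1.congr_deriv (by ring)
    exact h2.hasDerivWithinAt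
  have hb : ∀ s ∈ ball c (R / 2), ‖2 * E s * deriv E s‖ ≤
      9 * Real.exp 3 ^ 2 * ‖β‖ * ‖E s0‖ ^ 2 / ‖Sn E s0‖ := by
    intro s hs
    rw [norm_mul, norm_mul, norm_ofNat]
    calc 2 * ‖E s‖ * ‖deriv E s‖ ≤ (2 * (Real.exp 3 * ‖E s0‖)) *
          (9 / 2 * ‖β‖ * (Real.exp 3 * ‖E s0‖) / ‖Sn E s0‖) := by
          refine mul_le_mul ?_ (h.dE4 hβ hs hs0) (norm_nonneg _) (by positivity)
          linarith [h.gron hβ hs hs0]
      _ = _ := by ring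
  have h1 := (convex_ball c (R / 2)).norm_image_sub_le_of_norm_hasDerivWithin_le hd hb hs0 hs2
  have h2 : ‖s2 - s0‖ ≤ R := Lf.dist_half hs2 hs0
  calc ‖E s2 ^ 2 - E s0 ^ 2‖ * ‖Sn E s0‖ ≤
        (9 * Real.exp 3 ^ 2 * ‖β‖ * ‖E s0‖ ^ 2 / ‖Sn E s0‖ * R) * ‖Sn E s0‖ := by
        refine mul_le_mul_of_nonneg_right (h1.trans ?_) hS.le
        exact mul_le_mul_of_nonneg_left h2 (by positivity)
    _ = _ := by field_simp

theorem Lf.up1 (h : Lf c R β E) (hβ : β ≠ 0) {s0 s1 : ℂ} (hs0 : s0 ∈ ball c (R / 2))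
    (hs1 : s1 ∈ ball c (R / 2)) :
    ‖E s1 - E s0‖ ≤ 9 / 2 * ‖β‖ * (Real.exp 3 * ‖E s0‖) / ‖Sn E s0‖ * ‖s1 - s0‖ :=
  (convex_ball c (R / 2)).norm_image_sub_le_of_norm_hasDerivWithin_le
    (fun s hs => (h.hasE (h.half hs)).hasDerivWithinAt) (fun s hs => h.dE4 hβ hs hs0) hs0 hs1

theorem Lf.small (h : Lf c R β E) (hβ : β ≠ 0) {s0 s1 : ℂ} (hs0 : s0 ∈ ball c (R / 2))
    (hs1 : s1 ∈ ball c (R / 2)) (hd : ‖s1 - s0‖ ≤ R / 300) :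
    ‖E s1 - E s0‖ ≤ 1 / 4 * ‖E s0‖ := by
  have hR := h.R0
  have hb : ∀ s ∈ ball c (R / 2), ‖deriv E s‖ ≤ 3 / R * (Real.exp 3 * ‖E s0‖) := fun s hs =>
    (h.dE3 hβ hs).trans (mul_le_mul_of_nonneg_left (h.gron hβ hs hs0) (by positivity))
  have h1 := (convex_ball c (R / 2)).norm_image_sub_le_of_norm_hasDerivWithin_le
    (fun s hs => (h.hasE (h.half hs)).hasDerivWithinAt) hb hs0 hs1
  have h2 := exp3_lt
  have h3 := norm_nonneg (E s0)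
  calc _ ≤ _ := h1
    _ ≤ 3 / R * (Real.exp 3 * ‖E s0‖) * (R / 300) := mul_le_mul_of_nonneg_left hd (by positivity)
    _ = Real.exp 3 * ‖E s0‖ / 100 := by field_simp; ring
    _ ≤ _ := by nlinarith

/-- lower bound for the difference -/
theorem Lf.low1 (h : Lf c R β E) (hβ : β ≠ 0) {s0 s1 : ℂ} (hs0 : s0 ∈ ball c (R / 2))
    (hs1 : s1 ∈ ball c (R / 2)) (hd : ‖s1 - s0‖ ≤ R / 300) :
    7 / 4 * ‖β‖ * ‖s1 - s0‖ * ‖E s0‖ ≤ 5 * ‖Sn E s0‖ * ‖E s1 - E s0‖ := by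
  have hR := h.R0
  have hS := h.S0pos hβ hs0
  have hbp : 0 < ‖β‖ := norm_pos_iff.2 hβ
  have z0 := h.ne s0 (h.half hs0)
  have z1 := h.ne s1 (h.half hs1)
  have a0 : 0 < ‖E s0‖ := norm_pos_iff.2 z0
  have a1 : 0 < ‖E s1‖ := norm_pos_iff.2 z1
  have hsm := h.small hβ hs0 hs1 hd
  have h34 : 3 / 4 * ‖E s0‖ ≤ ‖E s1‖ := by
    have : ‖E s0‖ - ‖E s1‖ ≤ ‖E s1 - E s0‖ := by
      rw [norm_sub_rev]; exact norm_sub_norm_le _ _
    linarith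
  have hlow := h.lowC (h.half hs1) (h.half hs0)
  have hCC : Cs E s1 - Cs E s0 = (E s1 - E s0) * (1 - (E s0 * E s1)⁻¹) / 2 := by
    simp only [Cs]; field_simp; ring
  have hN : ‖E s0‖ * ‖1 - (E s0 * E s1)⁻¹‖ ≤ 5 * ‖Sn E s0‖ := by
    have e : E s0 * (1 - (E s0 * E s1)⁻¹) = 2 * Sn E s0 + (E s1 - E s0) / (E s0 * E s1) := by
      simp only [Sn]; field_simp; ring
    rw [← norm_mul, e]
    refine (norm_add_le _ _).trans ?_
    have h1 : ‖(E s1 - E s0) / (E s0 * E s1)‖ ≤ 3 * ‖Sn E s0‖ := by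
      rw [norm_div, norm_mul, div_le_iff₀ (by positivity)]
      have h2 := h.up1 hβ hs0 hs1
      have h3 := h.key hβ hs0
      have h4 := exp3_lt
      have h5 : 9 / 2 * ‖β‖ * (Real.exp 3 * ‖E s0‖) / ‖Sn E s0‖ * ‖s1 - s0‖ ≤
          9 / 2 * ‖β‖ * (20.1 * ‖E s0‖) / ‖Sn E s0‖ * (R / 300) := by
        gcongr
      have h6 : 9 / 2 * ‖β‖ * (20.1 * ‖E s0‖) / ‖Sn E s0‖ * (R / 300) ≤
          20.1 / 600 * (64 * (‖Sn E s0‖ ^ 2 * ‖E s0‖)) * ‖E s0‖ / ‖Sn E s0‖ := by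
        have : 9 / 2 * ‖β‖ * (20.1 * ‖E s0‖) / ‖Sn E s0‖ * (R / 300) =
          20.1 / 600 * (9 * (‖β‖ * R)) * ‖E s0‖ / ‖Sn E s0‖ := by ring
        rw [this]
        gcongr
      have h7 : 20.1 / 600 * (64 * (‖Sn E s0‖ ^ 2 * ‖E s0‖)) * ‖E s0‖ / ‖Sn E s0‖ =
          20.1 / 600 * 64 * ‖Sn E s0‖ * (‖E s0‖ * ‖E s0‖) := by
        field_simp
      have h8 : ‖E s0‖ * (3 / 4 * ‖E s0‖) ≤ ‖E s0‖ * ‖E s1‖ :=
        mul_le_mul_of_nonneg_left h34 a0.le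
      have h9 : ‖Sn E s0‖ * (‖E s0‖ * (3 / 4 * ‖E s0‖)) ≤ ‖Sn E s0‖ * (‖E s0‖ * ‖E s1‖) :=
        mul_le_mul_of_nonneg_left h8 hS.le
      have h10 : 0 ≤ ‖Sn E s0‖ * (‖E s0‖ * ‖E s0‖) := by positivity
      rw [h7] at h6
      nlinarith
    rw [norm_mul, norm_ofNat]
    linarith
  have h1 : 7 / 8 * ‖β‖ * ‖s1 - s0‖ ≤ ‖E s1 - E s0‖ * ‖1 - (E s0 * E s1)⁻¹‖ / 2 := by
    rw [hCC, norm_div, norm_mul, norm_ofNat] at hlow
    exact hlow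
  calc 7 / 4 * ‖β‖ * ‖s1 - s0‖ * ‖E s0‖ = 2 * (7 / 8 * ‖β‖ * ‖s1 - s0‖) * ‖E s0‖ := by ring
    _ ≤ 2 * (‖E s1 - E s0‖ * ‖1 - (E s0 * E s1)⁻¹‖ / 2) * ‖E s0‖ := by gcongr
    _ = ‖E s1 - E s0‖ * (‖E s0‖ * ‖1 - (E s0 * E s1)⁻¹‖) := by ring
    _ ≤ ‖E s1 - E s0‖ * (5 * ‖Sn E s0‖) := mul_le_mul_of_nonneg_left hN (norm_nonneg _)
    _ = _ := by ring

/-- bounded distortion of the square -/
theorem Lf.two (h : Lf c R β E) (hβ : β ≠ 0) {s0 s1 s2 : ℂ} (hs0 : s0 ∈ ball c (R / 2))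
    (hs1 : s1 ∈ ball c (R / 2)) (hs2 : s2 ∈ ball c (R / 2)) (hd : ‖s1 - s0‖ ≤ R / 300) :
    ‖E s2 ^ 2 - E s0 ^ 2‖ * ‖s1 - s0‖ ≤ 6000 * R * ‖E s1 ^ 2 - E s0 ^ 2‖ := by
  have hR := h.R0
  have hS := h.S0pos hβ hs0
  have hbp : 0 < ‖β‖ := norm_pos_iff.2 hβ
  have a0 : 0 < ‖E s0‖ := norm_pos_iff.2 (h.ne s0 (h.half hs0))
  have h1 := h.up2 hβ hs0 hs2
  have h2 := h.low1 hβ hs0 hs1 hd
  have h3 := h.small hβ hs0 hs1 hd
  have h4 := exp3_lt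
  have h5 : 7 / 4 * ‖E s0‖ ≤ ‖E s1 + E s0‖ := by
    have : ‖(2 : ℂ) * E s0‖ ≤ ‖E s1 + E s0‖ + ‖E s1 - E s0‖ := by
      calc ‖(2 : ℂ) * E s0‖ = ‖(E s1 + E s0) - (E s1 - E s0)‖ := by ring_nf
        _ ≤ _ := norm_sub_le _ _
    rw [norm_mul, norm_ofNat] at this
    linarith
  have h6 : 7 / 4 * ‖E s0‖ * ‖E s1 - E s0‖ ≤ ‖E s1 ^ 2 - E s0 ^ 2‖ := by
    have e : E s1 ^ 2 - E s0 ^ 2 = (E s1 + E s0) * (E s1 - E s0) := by ring
    rw [e, norm_mul]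
    exact mul_le_mul_of_nonneg_right h5 (norm_nonneg _)
  have h7 : Real.exp 3 ^ 2 ≤ 405 := by
    have := Real.exp_pos 3
    nlinarith
  -- multiply by `Sn`
  refine le_of_mul_le_mul_right ?_ hS
  have h8 : 49 / 16 * (‖β‖ * ‖s1 - s0‖ * ‖E s0‖ ^ 2) ≤
      5 * ‖Sn E s0‖ * ‖E s1 ^ 2 - E s0 ^ 2‖ := by
    have e1 : 49 / 16 * (‖β‖ * ‖s1 - s0‖ * ‖E s0‖ ^ 2) =
        7 / 4 * ‖E s0‖ * (7 / 4 * ‖β‖ * ‖s1 - s0‖ * ‖E s0‖) := by ring
    rw [e1]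
    calc _ ≤ 7 / 4 * ‖E s0‖ * (5 * ‖Sn E s0‖ * ‖E s1 - E s0‖) := by gcongr
      _ = 5 * ‖Sn E s0‖ * (7 / 4 * ‖E s0‖ * ‖E s1 - E s0‖) := by ring
      _ ≤ _ := by gcongr
  calc ‖E s2 ^ 2 - E s0 ^ 2‖ * ‖s1 - s0‖ * ‖Sn E s0‖
      = (‖E s2 ^ 2 - E s0 ^ 2‖ * ‖Sn E s0‖) * ‖s1 - s0‖ := by ring
    _ ≤ (9 * Real.exp 3 ^ 2 * (‖β‖ * R) * ‖E s0‖ ^ 2) * ‖s1 - s0‖ := by gcongr
    _ ≤ (9 * 405 * (‖β‖ * R) * ‖E s0‖ ^ 2) * ‖s1 - s0‖ := by gcongr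
    _ = (9 * 405 * 16 / 49 * R) * (49 / 16 * (‖β‖ * ‖s1 - s0‖ * ‖E s0‖ ^ 2)) := by ring
    _ ≤ (9 * 405 * 16 / 49 * R) * (5 * ‖Sn E s0‖ * ‖E s1 ^ 2 - E s0 ^ 2‖) := by gcongr
    _ = (9 * 405 * 16 / 49 * 5) * (R * ‖Sn E s0‖ * ‖E s1 ^ 2 - E s0 ^ 2‖) := by ring
    _ ≤ 6000 * (R * ‖Sn E s0‖ * ‖E s1 ^ 2 - E s0 ^ 2‖) := by
        refine mul_le_mul_of_nonneg_right (by norm_num) (by positivity)
    _ = _ := by ring

/-- the degenerate case: `E` is constant -/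
theorem Lf.const (h : Lf c R 0 E) {s s' : ℂ} (hs : s ∈ ball c R) (hs' : s' ∈ ball c R) :
    E s = E s' := by
  have hl : ∀ x ∈ ball c R, Cs E x = Cs E s := by
    intro x hx
    have := h.lip hx hs
    simp only [zero_mul, sub_zero, norm_zero, zero_div, norm_le_zero_iff] at this
    exact sub_eq_zero.1 this
  have hz := h.ne s hs
  have hm : MapsTo E (ball c R) ({E s, (E s)⁻¹} : Set ℂ) := by
    intro x hx
    have h1 := hl x hx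
    have h0 := h.ne x hx
    simp only [Cs] at h1
    have h2 : (E x - E s) * (E x - (E s)⁻¹) = 0 := by
      field_simp
      field_simp at h1
      linear_combination h1
    rcases mul_eq_zero.1 h2 with h3 | h3
    · exact Or.inl (sub_eq_zero.1 h3)
    · exact Or.inr (sub_eq_zero.1 h3)
  exact (convex_ball c R).isPreconnected.constant_of_mapsTo (Set.toFinite _).isDiscrete
    h.dE.continuousOn hm hs hs'

/-- **one variable part of LEAF** -/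
theorem Lf.main (h : Lf c R β E) {s0 s1 s2 : ℂ} (hs0 : s0 ∈ ball c (R / 2))
    (hs1 : s1 ∈ ball c (R / 2)) (hs2 : s2 ∈ ball c (R / 2)) (h01 : s1 ≠ s0)
    (hd : ‖s1 - s0‖ ≤ R / 300) :
    (∃ ρ : ℂ, ‖ρ‖ ≤ 6000 * R / ‖s1 - s0‖ ∧ E s2 ^ 2 = E s0 ^ 2 + ρ * (E s1 ^ 2 - E s0 ^ 2)) ∧
    ‖E s2‖ ≤ 21 * ‖E s0‖ ∧ ‖E s0‖ ≤ 21 * ‖E s2‖ := by
  have hR := h.R0
  have hD : 0 < ‖s1 - s0‖ := norm_pos_iff.2 (sub_ne_zero.2 h01)
  by_cases hβ : β = 0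
  · subst hβ
    have e1 := h.const (h.half hs2) (h.half hs0)
    refine ⟨⟨0, by rw [norm_zero]; positivity, by rw [e1]; ring⟩, ?_, ?_⟩
    · rw [e1]; linarith [norm_nonneg (E s0)]
    · rw [e1]; linarith [norm_nonneg (E s0)]
  · have h1 := h.two hβ hs0 hs1 hs2 hd
    have h4 := exp3_lt
    refine ⟨?_, ?_, ?_⟩
    · by_cases h5 : E s1 ^ 2 - E s0 ^ 2 = 0
      · rw [h5, norm_zero, mul_zero] at h1
        have h6 : ‖E s2 ^ 2 - E s0 ^ 2‖ = 0 := by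
          have := norm_nonneg (E s2 ^ 2 - E s0 ^ 2)
          nlinarith
        refine ⟨0, by rw [norm_zero]; positivity, ?_⟩
        rw [norm_eq_zero] at h6
        linear_combination h6
      · have h6 : 0 < ‖E s1 ^ 2 - E s0 ^ 2‖ := norm_pos_iff.2 h5
        refine ⟨(E s2 ^ 2 - E s0 ^ 2) / (E s1 ^ 2 - E s0 ^ 2), ?_, by field_simp; ring⟩
        rw [norm_div, div_le_div_iff₀ h6 hD]
        exact h1
    · have := h.gron hβ hs2 hs0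
      have h0 := norm_nonneg (E s0)
      nlinarith
    · have := h.gron hβ hs0 hs2
      have h0 := norm_nonneg (E s2)
      nlinarith

end Vale.Agent.P097.H17
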