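import Vale.Agent.P097.H929.Thin

/-!
# P097 / case [c] / T-DISC, row TD-POS: positions

`P` is Lipschitz on the labels (`P_lip`), `Ψ w` is close to `P a` at points non-tangential to the
NEAREST label (`psi_pos`), and the lateral points of the disc are at distance `≤ C (r + ‖w - a‖)`
of the window (`pos`).
-/

set_option linter.all false

open Complex Metric Filter Topology Set

namespace Vale.Agent.P097.H17.TDp

open Vale.Agent.P097.H85 Vale.Agent.P097.H929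

/-- the value at a non-tangential point -/
theorem psi_lab {M : Set (ℂ × ℂ)} {b m : ℝ} {Ψ : ℂ → ℂ} {a ρ : ℝ} {P₀ : ℂ} {c k c₀ ε S : ℝ}
    (h : Cmp M b m Ψ a ρ P₀ c k c₀ ε) (hc : |c| ≤ S) (hk : |k| ≤ S) {w : ℂ}
    (h1 : |w.re - a| < ρ) (h2 : 0 < w.im) (h3 : w.im < ρ) (h4 : c₀ * |w.re - a| ≤ w.im) :
    ‖Ψ w - P₀‖ ≤ (ε + 2 * S) * ‖w - a‖ := by
  have hn := h.nt w h1 h2 h3 h4
  have e1 : Ψ w - P₀ = (Ψ w - P₀ - (I * c + k) * (w - a)) + (I * c + k) * (w - a) := by ring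
  have e2 : ‖(I * c + k : ℂ)‖ ≤ 2 * S := by
    calc ‖(I * c + k : ℂ)‖ ≤ ‖(I * c : ℂ)‖ + ‖(k : ℂ)‖ := norm_add_le _ _
      _ = |c| + |k| := by
          rw [norm_mul, norm_I, one_mul, Complex.norm_real, Complex.norm_real,
            Real.norm_eq_abs, Real.norm_eq_abs]
      _ ≤ 2 * S := by linarith
  rw [e1]
  calc ‖(Ψ w - P₀ - (I * c + k) * (w - a)) + (I * c + k) * (w - a)‖
      ≤ ‖Ψ w - P₀ - (I * c + k) * (w - a)‖ + ‖(I * c + k) * (w - a)‖ := norm_add_le _ _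
    _ ≤ ε * ‖w - a‖ + 2 * S * ‖w - a‖ := by
        rw [norm_mul]
        exact add_le_add hn (mul_le_mul_of_nonneg_right e2 (norm_nonneg _))
    _ = _ := by ring

theorem norm_lab {w : ℂ} {a : ℝ} (hw : 0 ≤ w.im) : ‖w - a‖ ≤ |w.re - a| + w.im := by
  have h := Complex.norm_le_abs_re_add_abs_im (w - a)
  simp only [sub_re, ofReal_re, sub_im, ofReal_im, sub_zero] at h
  rwa [abs_of_nonneg hw] at h

theorem re_le {w : ℂ} {a : ℝ} : |w.re - a| ≤ ‖w - a‖ := by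
  have h := Complex.abs_re_le_norm (w - a)
  simpa using h

theorem im_le {w : ℂ} {a : ℝ} : |w.im| ≤ ‖w - a‖ := by
  have h := Complex.abs_im_le_norm (w - a)
  simpa using h

variable {M : Set (ℂ × ℂ)} {b m : ℝ} {Ψ : ℂ → ℂ} {A : Set ℝ} {P : ℝ → ℂ} {c k : ℝ → ℝ}

/-- **`P` is Lipschitz on the labels** -/
theorem P_lip (hU : CmpU M b m Ψ A P c k) : ∃ d > 0, ∃ C, 0 ≤ C ∧ ∀ a ∈ A, ∀ a' ∈ A,
    |a - a'| < d → ‖P a - P a'‖ ≤ C * |a - a'| := by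
  obtain ⟨S, hS⟩ := hU.bd
  obtain ⟨ρ, hρ, hC⟩ := hU.cmp 1 one_pos 1 one_pos
  refine ⟨ρ, hρ, 3 * (1 + 2 * |S|), by positivity, fun a ha a' ha' hd => ?_⟩
  rcases eq_or_ne a a' with rfl | hne
  · simp
  have hη : 0 < |a - a'| := abs_pos.2 (sub_ne_zero.2 hne)
  set w : ℂ := (a : ℂ) + (|a - a'| : ℝ) * I with hw
  have hre : w.re = a := by simp [hw]
  have him : w.im = |a - a'| := by simp [hw]
  have hSa := hS a ha
  have hSa' := hS a' ha'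
  have hSS : S ≤ |S| := le_abs_self S
  have e1 := psi_lab (hC a ha) (hSa.1.trans hSS) (hSa.2.trans hSS) (w := w)
    (by rw [hre]; simpa using hρ) (by rw [him]; exact hη) (by rw [him]; exact hd)
    (by rw [hre, him]; simp)
  have e2 := psi_lab (hC a' ha') (hSa'.1.trans hSS) (hSa'.2.trans hSS) (w := w)
    (by rw [hre]; exact hd) (by rw [him]; exact hη) (by rw [him]; exact hd)
    (by rw [hre, him]; simp)
  have n1 : ‖w - a‖ ≤ |a - a'| := by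
    have := norm_lab (w := w) (a := a) (by rw [him]; exact hη.le)
    rwa [hre, him, sub_self, abs_zero, zero_add] at this
  have n2 : ‖w - a'‖ ≤ 2 * |a - a'| := by
    have := norm_lab (w := w) (a := a') (by rw [him]; exact hη.le)
    rw [hre, him] at this
    linarith
  have hK : 0 ≤ 1 + 2 * |S| := by positivity
  calc ‖P a - P a'‖ = ‖(Ψ w - P a') - (Ψ w - P a)‖ := by congr 1; ring
    _ ≤ ‖Ψ w - P a'‖ + ‖Ψ w - P a‖ := norm_sub_le _ _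
    _ ≤ (1 + 2 * |S|) * (2 * |a - a'|) + (1 + 2 * |S|) * |a - a'| :=
        add_le_add (e2.trans (mul_le_mul_of_nonneg_left n2 hK))
          (e1.trans (mul_le_mul_of_nonneg_left n1 hK))
    _ = _ := by ring

/-- **`Ψ` near a label**, at points non-tangential to the nearest label -/
theorem psi_pos (hU : CmpU M b m Ψ A P c k) (hA : IsCompact A) :
    ∀ c₁ > 0, ∃ d > 0, ∃ C, 0 ≤ C ∧ ∀ a ∈ A, ∀ w : ℂ, ‖w - a‖ < d → 0 < w.im →
      c₁ * infDist w.re A ≤ w.im → ‖Ψ w - P a‖ ≤ C * ‖w - a‖ := by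
  intro c₁ hc₁
  obtain ⟨S, hS⟩ := hU.bd
  obtain ⟨ρ, hρ, hC⟩ := hU.cmp c₁ hc₁ 1 one_pos
  obtain ⟨d, hd, C, hC0, hL⟩ := P_lip hU
  refine ⟨min ρ (d / 2), lt_min hρ (by positivity), 2 * (1 + 2 * |S|) + 2 * C, by positivity,
    fun a ha w hw hwi hwA => ?_⟩
  obtain ⟨a', ha', hda⟩ := hA.exists_infDist_eq_dist ⟨a, ha⟩ w.re
  rw [Real.dist_eq] at hda
  have hnear : |w.re - a'| ≤ |w.re - a| := by
    rw [← hda, ← Real.dist_eq]
    exact infDist_le_dist_of_mem ha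
  have h1 : |w.re - a| ≤ ‖w - a‖ := re_le
  have h2 : w.im ≤ ‖w - a‖ := (le_abs_self _).trans im_le
  have hwρ : ‖w - a‖ < ρ := hw.trans_le (min_le_left _ _)
  have hwd : ‖w - a‖ < d / 2 := hw.trans_le (min_le_right _ _)
  have hSS : S ≤ |S| := le_abs_self S
  have e1 := psi_lab (hC a' ha') ((hS a' ha').1.trans hSS) ((hS a' ha').2.trans hSS) (w := w)
    (by linarith) hwi (by linarith) (by rw [← hda]; exact hwA)
  have n1 : ‖w - a'‖ ≤ 2 * ‖w - a‖ := by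
    have := norm_lab (w := w) (a := a') hwi.le
    linarith
  have haa : |a' - a| ≤ 2 * ‖w - a‖ := by
    have := abs_sub_le a' w.re a
    rw [abs_sub_comm a' w.re] at this
    linarith
  have e2 := hL a' ha' a ha (by linarith)
  have hK : 0 ≤ 1 + 2 * |S| := by positivity
  calc ‖Ψ w - P a‖ = ‖(Ψ w - P a') + (P a' - P a)‖ := by congr 1; ring
    _ ≤ ‖Ψ w - P a'‖ + ‖P a' - P a‖ := norm_add_le _ _
    _ ≤ (1 + 2 * |S|) * (2 * ‖w - a‖) + C * (2 * ‖w - a‖) :=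
        add_le_add (e1.trans (mul_le_mul_of_nonneg_left n1 hK))
          (e2.trans (mul_le_mul_of_nonneg_left haa hC0))
    _ = _ := by ring

/-- **positions of the lateral points** relative to the window `z# = (t', v')` near
`(y + i (Im P a - r), a)` -/
theorem pos (hU : CmpU M b m Ψ A P c k) (hA : IsCompact A) :
    ∀ c₁ > 0, ∃ d > 0, ∀ C', 0 ≤ C' → ∃ C'', 1 ≤ C'' ∧ ∀ a ∈ A, ∀ y r : ℝ, 0 ≤ r →
      ∀ s w : ℂ, ‖w - a‖ < d → 0 < w.im → c₁ * infDist w.re A ≤ w.im →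
      |s.re - (y - (P a).re)| ≤ C' * (r + ‖w - a‖) → |s.im| ≤ C' * (r + ‖w - a‖) →
      ∀ t' v' : ℂ, ‖t' - ((y : ℂ) + ((P a).im - r : ℝ) * I)‖ ≤ C' * r → ‖v' - a‖ ≤ C' * r →
      ‖((s + Ψ w, w) : ℂ × ℂ) - (t', v')‖ ≤ C'' * (r + ‖w - a‖) := by
  intro c₁ hc₁
  obtain ⟨d, hd, C, hC, hψ⟩ := psi_pos hU hA c₁ hc₁
  refine ⟨d, hd, fun C' hC' => ⟨3 * C' + C + 1, by linarith, ?_⟩⟩
  intro a ha y r hr s w hw hwi hwA hs1 hs2 t' v' ht hv
  have h1 := hψ a ha w hw hwi hwA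
  have hn : 0 ≤ ‖w - a‖ := norm_nonneg _
  have e1 : s + Ψ w - t' = (s - ((y - (P a).re : ℝ) : ℂ)) + (Ψ w - P a) + (r : ℂ) * I -
      (t' - ((y : ℂ) + ((P a).im - r : ℝ) * I)) := by
    apply Complex.ext
    · simp; ring
    · simp; ring
  have e2 : ‖s - ((y - (P a).re : ℝ) : ℂ)‖ ≤ 2 * C' * (r + ‖w - a‖) := by
    have := Complex.norm_le_abs_re_add_abs_im (s - ((y - (P a).re : ℝ) : ℂ))
    rw [sub_re, ofReal_re, sub_im, ofReal_im, sub_zero] at this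
    linarith
  have e3 : ‖(r : ℂ) * I‖ = r := by
    rw [norm_mul, norm_I, mul_one, Complex.norm_real, Real.norm_eq_abs, abs_of_nonneg hr]
  have e4 : ‖s + Ψ w - t'‖ ≤ (3 * C' + C + 1) * (r + ‖w - a‖) := by
    rw [e1]
    calc _ ≤ ‖(s - ((y - (P a).re : ℝ) : ℂ)) + (Ψ w - P a) + (r : ℂ) * I‖ +
          ‖t' - ((y : ℂ) + ((P a).im - r : ℝ) * I)‖ := norm_sub_le _ _
      _ ≤ (‖s - ((y - (P a).re : ℝ) : ℂ)‖ + ‖Ψ w - P a‖ + ‖(r : ℂ) * I‖) + C' * r :=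
          add_le_add ((norm_add_le _ _).trans (add_le_add (norm_add_le _ _) le_rfl)) ht
      _ ≤ (2 * C' * (r + ‖w - a‖) + C * ‖w - a‖ + r) + C' * r := by
          rw [e3]; linarith
      _ ≤ _ := by nlinarith [mul_nonneg hC hr, mul_nonneg hC' hn]
  have e5 : ‖w - v'‖ ≤ (3 * C' + C + 1) * (r + ‖w - a‖) := by
    calc ‖w - v'‖ = ‖(w - a) - (v' - a)‖ := by congr 1; ring
      _ ≤ ‖w - a‖ + ‖v' - a‖ := norm_sub_le _ _
      _ ≤ ‖w - a‖ + C' * r := by linarith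
      _ ≤ _ := by nlinarith [mul_nonneg hC hr, mul_nonneg hC' hn, mul_nonneg hC' hr,
          mul_nonneg hC hn]
  rw [Prod.norm_def]
  exact max_le e4 e5

/-- the same with the window over the real abscissa `y`, real label `v` -/
theorem pos_real (hU : CmpU M b m Ψ A P c k) (hA : IsCompact A) :
    ∀ c₁ > 0, ∃ d > 0, ∀ C', 0 ≤ C' → ∃ C'', 1 ≤ C'' ∧ ∀ a ∈ A, ∀ y r : ℝ, 0 ≤ r →
      ∀ s w : ℂ, ‖w - a‖ < d → 0 < w.im → c₁ * infDist w.re A ≤ w.im →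
      |s.re - (y - (P a).re)| ≤ C' * (r + ‖w - a‖) → 0 ≤ -s.im → -s.im ≤ C' * (r + ‖w - a‖) →
      ∀ (t' : ℂ) (v : ℝ), ‖t' - ((y : ℂ) + ((P a).im - r : ℝ) * I)‖ ≤ C' * r → |v - a| ≤ C' * r →
      ‖((s + Ψ w, w) : ℂ × ℂ) - (t', (v : ℂ))‖ ≤ C'' * (r + ‖w - a‖) := by
  intro c₁ hc₁
  obtain ⟨d, hd, h⟩ := pos hU hA c₁ hc₁
  refine ⟨d, hd, fun C' hC' => ?_⟩
  obtain ⟨C'', h1, h2⟩ := h C' hC'
  refine ⟨C'', h1, fun a ha y r hr s w hw hwi hwA hs1 hs0 hs2 t' v ht hv => ?_⟩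
  refine h2 a ha y r hr s w hw hwi hwA hs1 ?_ t' v ht ?_
  · rw [← abs_neg, abs_of_nonneg hs0]; exact hs2
  · rw [← ofReal_sub, Complex.norm_real, Real.norm_eq_abs]; exact hv

end Vale.Agent.P097.H17.TDp
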